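import Mathlib

namespace Vale.Agent.Lib.P068

open Set

variable {α : Type*}

/-- A pair `(M, N)` of matroids satisfies intersection if some set independent in both
splits as `J = JM ∪ JN` (disjoint) with `cl_M JM ∪ cl_N JN` equal to the ground set. -/
def SatisfiesIntersection (M N : Matroid α) : Prop :=
  ∃ JM JN : Set α, M.Indep (JM ∪ JN) ∧ N.Indep (JM ∪ JN) ∧ Disjoint JM JN ∧
    M.closure JM ∪ N.closure JN = M.E

/-- `N` is almost uniform if every subset of its ground set has finite nullity (it is an
independent set plus finitely many elements) or finite corank (it becomes spanning after adding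
finitely many elements). Every uniform matroid in the sense of the problem (each subset is
independent or spanning) is almost uniform, and so is every matroid of finite rank or
of finite corank. -/
def AlmostUniform (N : Matroid α) : Prop :=
  ∀ X ⊆ N.E, (∃ I ⊆ X, N.Indep I ∧ (X \ I).Finite) ∨ (∃ F : Set α, F.Finite ∧ N.Spanning (X ∪ F))

/-- The relative version of `AlmostUniform`: only subsets of the ground set of `N` which are
independent in the matroid `M` are looked at. If `N` is almost uniform then it is almost
uniform on `M`, for each `M`. -/
def AlmostUniformOn (M N : Matroid α) : Prop :=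
  ∀ X ⊆ N.E, M.Indep X →
    (∃ I ⊆ X, N.Indep I ∧ (X \ I).Finite) ∨ (∃ F : Set α, F.Finite ∧ N.Spanning (X ∪ F))

lemma AlmostUniform.on {N : Matroid α} (h : AlmostUniform N) (M : Matroid α) :
    AlmostUniformOn M N := fun X hX _ => h X hX

end Vale.Agent.Lib.P068
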