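import Mathlib
import Vale.Agent.Lib.P068.Defs

namespace Vale.Agent.Lib.P068

open Set Matroid

variable {α : Type*} {M N : Matroid α} {B D : Set α} {e f y z v w : α}

/-- `MArc M B e f`: `e` lies outside the base `B`, `f` inside, and swapping gives a base. -/
def MArc (M : Matroid α) (B : Set α) (e f : α) : Prop :=
  e ∉ B ∧ f ∈ B ∧ M.IsBase (insert e (B \ {f}))

lemma isBase_exch_iff (hB : M.IsBase B) (hv : v ∈ B) (hy : y ∈ M.E) (hyB : y ∉ B) :
    M.IsBase (insert y (B \ {v})) ↔ y ∉ M.closure (B \ {v}) := by
  have hI : M.Indep (B \ {v}) := hB.indep.subset sdiff_subset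
  have hyB' : y ∉ B \ {v} := fun h => hyB h.1
  constructor
  · intro h
    exact ((hI.insert_indep_iff_of_notMem hyB').1 h.indep).2
  · intro h
    have hind : M.Indep (insert y (B \ {v})) :=
      (hI.insert_indep_iff_of_notMem hyB').2 ⟨hy, h⟩
    have hyc : y ∈ M.closure (insert v (B \ {v})) := by
      rw [insert_sdiff_self_of_mem hv, hB.closure_eq]; exact hy
    have hvc : v ∈ M.closure (insert y (B \ {v})) := (closure_exchange ⟨hyc, h⟩).1
    refine hind.isBase_of_ground_subset_closure ?_
    rw [← hB.closure_eq]
    apply M.closure_subset_closure_of_subset_closure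
    intro a ha
    obtain rfl | hne := eq_or_ne a v
    · exact hvc
    · exact M.mem_closure_of_mem' (mem_insert_of_mem _ ⟨ha, hne⟩) (hB.subset_ground ha)

lemma MArc.mem_ground (h : MArc M B e f) : e ∈ M.E :=
  h.2.2.subset_ground (mem_insert _ _)

/-- Two exchanges can be performed one after another if the corresponding two by two
exchange pattern has a unique perfect matching. -/
lemma exch_two (hB : M.IsBase B) (hy : MArc M B y z) (hw : MArc M B w v) (hyw : y ≠ w)
    (hzv : z ≠ v) (hn : ¬ MArc M B y v ∨ ¬ MArc M B w z) :
    MArc M (insert y (B \ {z})) w v := by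
  obtain ⟨hyB, hzB, hB₁⟩ := hy
  obtain ⟨hwB, hvB, hB₂⟩ := hw
  have hyE : y ∈ M.E := hB₁.subset_ground (mem_insert _ _)
  have hwE : w ∈ M.E := hB₂.subset_ground (mem_insert _ _)
  have hyz := (isBase_exch_iff hB hzB hyE hyB).1 hB₁
  have hwv := (isBase_exch_iff hB hvB hwE hwB).1 hB₂
  have hw₁ : w ∉ insert y (B \ {z}) := by
    rintro (h | h)
    · exact hyw h.symm
    · exact hwB h.1
  have hv₁ : v ∈ insert y (B \ {z}) := mem_insert_of_mem _ ⟨hvB, fun h => hzv h.symm⟩
  refine ⟨hw₁, hv₁, ?_⟩
  rw [isBase_exch_iff hB₁ hv₁ hwE hw₁]
  intro hcl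
  -- the set `F`
  have hFv : (B \ {z}) \ {v} ⊆ B \ {v} := fun a ha => ⟨ha.1.1, ha.2⟩
  have hFz : (B \ {z}) \ {v} ⊆ B \ {z} := fun a ha => ha.1
  have hsd : insert y (B \ {z}) \ {v} = insert y ((B \ {z}) \ {v}) := by
    have hyv : y ≠ v := fun h => hyB (h ▸ hvB)
    ext a
    simp only [mem_sdiff, mem_insert_iff, mem_singleton_iff]
    constructor
    · rintro ⟨h | h, h'⟩
      · exact Or.inl h
      · exact Or.inr ⟨h, h'⟩
    · rintro (h | h)
      · exact ⟨Or.inl h, fun h' => hyv (h ▸ h')⟩
      · exact ⟨Or.inr h.1, h.2⟩
  rw [hsd] at hcl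
  rcases hn with hn | hn
  · have hy' : y ∈ M.closure (B \ {v}) := by
      by_contra hcon
      exact hn ⟨hyB, hvB, (isBase_exch_iff hB hvB hyE hyB).2 hcon⟩
    apply hwv
    refine M.closure_subset_closure_of_subset_closure ?_ hcl
    refine insert_subset hy' (hFv.trans (M.subset_closure _ ?_))
    exact sdiff_subset.trans hB.subset_ground
  · have hw' : w ∈ M.closure (B \ {z}) := by
      by_contra hcon
      exact hn ⟨hwB, hzB, (isBase_exch_iff hB hzB hwE hwB).2 hcon⟩
    have hwF : w ∉ M.closure ((B \ {z}) \ {v}) :=
      fun h => hwv (M.closure_subset_closure hFv h)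
    have hex : y ∈ M.closure (insert w ((B \ {z}) \ {v})) := (closure_exchange ⟨hcl, hwF⟩).1
    apply hyz
    refine M.closure_subset_closure_of_subset_closure ?_ hex
    refine insert_subset hw' (hFz.trans (M.subset_closure _ ?_))
    exact sdiff_subset.trans hB.subset_ground

/-- The arcs of the exchange digraph for a pair of bases. -/
def Arc (M N : Matroid α) (B D : Set α) (e f : α) : Prop :=
  MArc M B e f ∨ MArc N D f e

/-- `Reach M N B D k u`: from `u` one reaches `B \ D` along at most `k` arcs. -/
def Reach (M N : Matroid α) (B D : Set α) : ℕ → α → Prop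
  | 0, u => u ∈ B \ D
  | k + 1, u => u ∈ B \ D ∨ ∃ v, Arc M N B D u v ∧ Reach M N B D k v

lemma Reach.succ {k : ℕ} {u : α} (h : Reach M N B D k u) : Reach M N B D (k + 1) u := by
  induction k generalizing u with
  | zero => exact Or.inl h
  | succ k ih =>
    rcases h with h | ⟨v, hv, hr⟩
    · exact Or.inl h
    · exact Or.inr ⟨v, hv, ih hr⟩

/-- Flipping along a shortest augmenting path removes `y` from the defect `D \ B`. -/
lemma flip (n : ℕ) : ∀ (B D : Set α) (y : α), M.IsBase B → N.IsBase D → y ∈ D \ B →
    Reach M N B D n y →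
    ∃ B' D', M.IsBase B' ∧ N.IsBase D' ∧ D' \ B' ⊆ (D \ B) \ {y} := by
  induction n using Nat.strong_induction_on with
  | _ n ih =>
    intro B D y hB hD hy hr
    by_cases hmin : ∃ m < n, Reach M N B D m y
    · obtain ⟨m, hm, hrm⟩ := hmin
      exact ih m hm B D y hB hD hy hrm
    push Not at hmin
    cases n with
    | zero => exact absurd hr.1 hy.2
    | succ k =>
      rcases hr with hr | ⟨f, harc, hrf⟩
      · exact absurd hr.1 hy.2
      have hstep : ∀ j v, j + 1 ≤ k → Arc M N B D y v → Reach M N B D j v → False := by
        intro j v hj ha hrv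
        exact hmin (j + 1) (by omega) (Or.inr ⟨v, ha, hrv⟩)
      have hf_low : ∀ j, j + 1 ≤ k → ¬ Reach M N B D j f :=
        fun j hj hrj => hstep j f hj harc hrj
      rcases harc with harc | harc
      · -- an `M`-arc
        have hB₁ := harc.2.2
        by_cases hfD : f ∈ D
        · -- recursion with the new base `B₁`
          have hfB₁ : f ∉ insert y (B \ {f}) := by
            rintro (h | h)
            · exact hy.2 (h ▸ harc.2.1)
            · exact h.2 rfl
          have hpers : ∀ j, j < k → ∀ u, Reach M N B D j u →
              Reach M N (insert y (B \ {f})) D j u := by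
            intro j
            induction j with
            | zero =>
              intro _ u hu
              refine ⟨mem_insert_of_mem _ ⟨hu.1, ?_⟩, hu.2⟩
              rintro rfl
              exact hu.2 hfD
            | succ j ihj =>
              intro hj u hu
              rcases hu with hu | ⟨v, hv, hrv⟩
              · refine Or.inl ⟨mem_insert_of_mem _ ⟨hu.1, ?_⟩, hu.2⟩
                rintro rfl
                exact hu.2 hfD
              · refine Or.inr ⟨v, ?_, ihj (by omega) v hrv⟩
                rcases hv with hv | hv
                · refine Or.inl (exch_two hB harc hv ?_ ?_ (Or.inl ?_))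
                  · rintro rfl
                    exact hmin (j + 1) (by omega) (Or.inr ⟨v, Or.inl hv, hrv⟩)
                  · rintro rfl
                    exact hf_low j (by omega) hrv
                  · intro hyv
                    exact hstep j v (by omega) (Or.inl hyv) hrv
                · exact Or.inr hv
          have hrnew : Reach M N (insert y (B \ {f})) D k f := by
            cases k with
            | zero => exact absurd hfD hrf.2
            | succ j =>
              rcases hrf with hrf | ⟨v, hv, hrv⟩
              · exact absurd hfD hrf.2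
              · refine Or.inr ⟨v, ?_, hpers j (by omega) v hrv⟩
                rcases hv with hv | hv
                · exact absurd harc.2.1 hv.1
                · exact Or.inr hv
          obtain ⟨B', D', hB', hD', hsub⟩ :=
            ih k (by omega) _ D f hB₁ hD ⟨hfD, hfB₁⟩ hrnew
          refine ⟨B', D', hB', hD', hsub.trans ?_⟩
          rintro a ⟨⟨haD, haB⟩, haf⟩
          refine ⟨⟨haD, ?_⟩, ?_⟩
          · intro hab
            exact haB (mem_insert_of_mem _ ⟨hab, haf⟩)
          · rintro rfl
            exact haB (mem_insert _ _)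
        · refine ⟨_, D, hB₁, hD, ?_⟩
          rintro a ⟨haD, haB⟩
          refine ⟨⟨haD, ?_⟩, ?_⟩
          · intro hab
            refine haB (mem_insert_of_mem _ ⟨hab, ?_⟩)
            rintro rfl
            exact hfD haD
          · rintro rfl
            exact haB (mem_insert _ _)
      · -- an `N`-arc
        have hD₁ := harc.2.2
        by_cases hfB : f ∈ B
        · refine ⟨B, _, hB, hD₁, ?_⟩
          rintro a ⟨haD, haB⟩
          rcases haD with rfl | haD
          · exact absurd hfB haB
          · exact ⟨⟨haD.1, haB⟩, haD.2⟩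
        · have hfD₁ : f ∈ insert f (D \ {y}) \ B := ⟨mem_insert _ _, hfB⟩
          have hpers : ∀ j, j < k → ∀ u, Reach M N B D j u →
              Reach M N B (insert f (D \ {y})) j u := by
            intro j
            induction j with
            | zero =>
              intro _ u hu
              refine ⟨hu.1, ?_⟩
              rintro (h | h)
              · exact hfB (h ▸ hu.1)
              · exact hu.2 h.1
            | succ j ihj =>
              intro hj u hu
              rcases hu with hu | ⟨v, hv, hrv⟩
              · refine Or.inl ⟨hu.1, ?_⟩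
                rintro (h | h)
                · exact hfB (h ▸ hu.1)
                · exact hu.2 h.1
              · refine Or.inr ⟨v, ?_, ihj (by omega) v hrv⟩
                rcases hv with hv | hv
                · exact Or.inl hv
                · refine Or.inr (exch_two hD harc hv ?_ ?_ (Or.inr ?_))
                  · rintro rfl
                    exact hf_low j (by omega) hrv
                  · rintro rfl
                    exact hmin (j + 1) (by omega) (Or.inr ⟨v, Or.inr hv, hrv⟩)
                  · intro hvy
                    exact hstep j v (by omega) (Or.inr hvy) hrv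
          have hrnew : Reach M N B (insert f (D \ {y})) k f := by
            cases k with
            | zero => exact absurd hrf.1 hfB
            | succ j =>
              rcases hrf with hrf | ⟨v, hv, hrv⟩
              · exact absurd hrf.1 hfB
              · refine Or.inr ⟨v, ?_, hpers j (by omega) v hrv⟩
                rcases hv with hv | hv
                · exact Or.inl hv
                · exact absurd hv.2.1 harc.1
          obtain ⟨B', D', hB', hD', hsub⟩ :=
            ih k (by omega) B _ f hB hD₁ hfD₁ hrnew
          refine ⟨B', D', hB', hD', hsub.trans ?_⟩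
          rintro a ⟨⟨haD, haB⟩, haf⟩
          rcases haD with rfl | haD
          · exact absurd rfl haf
          · exact ⟨⟨haD.1, haB⟩, haD.2⟩

/-- If the defect is finite we can make sure that no element of it reaches `B \ D`. -/
lemma exists_no_reach (n : ℕ) : ∀ (B D : Set α), M.IsBase B → N.IsBase D → (D \ B).Finite →
    (D \ B).ncard = n →
    ∃ B' D', M.IsBase B' ∧ N.IsBase D' ∧ ∀ y ∈ D' \ B', ∀ k, ¬ Reach M N B' D' k y := by
  induction n using Nat.strong_induction_on with
  | _ n ih =>
    intro B D hB hD hfin hn
    by_cases hall : ∀ y ∈ D \ B, ∀ k, ¬ Reach M N B D k y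
    · exact ⟨B, D, hB, hD, hall⟩
    push Not at hall
    obtain ⟨y, hy, k, hr⟩ := hall
    obtain ⟨B', D', hB', hD', hsub⟩ := flip k B D y hB hD hy hr
    have hfin' : (D' \ B').Finite := (hfin.subset sdiff_subset).subset hsub
    have hlt : (D' \ B').ncard < n := by
      rw [← hn]
      refine (ncard_le_ncard hsub (hfin.subset sdiff_subset)).trans_lt ?_
      exact ncard_sdiff_singleton_lt_of_mem hy hfin
    exact ih _ hlt B' D' hB' hD' hfin' rfl

/-- If `e` has no arcs into `B \ S` then it is in the closure of `B ∩ S`. -/
lemma mem_closure_of_forall_not_arc (hB : M.IsBase B) (he : e ∈ M.E) (heB : e ∉ B) (S : Set α)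
    (hS : ∀ x ∈ B \ S, ¬ MArc M B e x) : e ∈ M.closure (B ∩ S) := by
  have heq : B ∩ S = ⋂₀ (insert B ((fun x => B \ {x}) '' (B \ S))) := by
    ext a
    constructor
    · rintro ⟨ha, haS⟩
      rw [mem_sInter]
      rintro J (rfl | ⟨x, hx, rfl⟩)
      · exact ha
      · refine ⟨ha, ?_⟩
        rintro rfl
        exact hx.2 haS
    · intro h
      rw [mem_sInter] at h
      have ha : a ∈ B := h B (mem_insert _ _)
      refine ⟨ha, ?_⟩
      by_contra haS
      exact (h _ (mem_insert_of_mem _ ⟨a, ⟨ha, haS⟩, rfl⟩)).2 rfl
  rw [heq, hB.indep.closure_sInter_eq_biInter_closure_of_forall_subset (insert_nonempty _ _)]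
  · simp only [mem_iInter, mem_insert_iff, mem_image]
    rintro J (rfl | ⟨x, hx, rfl⟩)
    · rw [hB.closure_eq]; exact he
    · by_contra hcon
      exact hS x hx ⟨heB, hx.1, (isBase_exch_iff hB hx.1 he heB).2 hcon⟩
  · rintro J (rfl | ⟨x, _, rfl⟩)
    · exact Subset.rfl
    · exact sdiff_subset

/-- The final step: a pair of bases without augmenting paths gives a solution. -/
lemma satisfies_of_no_reach (hE : M.E = N.E) (hB : M.IsBase B) (hD : N.IsBase D)
    (h : ∀ y ∈ D \ B, ∀ k, ¬ Reach M N B D k y) : SatisfiesIntersection M N := by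
  classical
  set R : Set α := {u | ∃ y ∈ D \ B, Relation.ReflTransGen (Arc M N B D) y u} with hR
  have hRarc : ∀ u v, u ∈ R → Arc M N B D u v → v ∈ R := by
    rintro u v ⟨y, hy, hyu⟩ huv
    exact ⟨y, hy, hyu.tail huv⟩
  have hRB : ∀ u, u ∈ R → u ∉ B \ D := by
    rintro u ⟨y, hy, hyu⟩ hu
    have : ∃ k, Reach M N B D k y := by
      clear hy
      induction hyu using Relation.ReflTransGen.head_induction_on with
      | refl => exact ⟨0, hu⟩
      | head hab _ ih =>
        obtain ⟨k, hk⟩ := ih
        exact ⟨k + 1, Or.inr ⟨_, hab, hk⟩⟩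
    obtain ⟨k, hk⟩ := this
    exact h y hy k hk
  have hDBR : ∀ u, u ∈ D \ B → u ∈ R := fun u hu => ⟨u, hu, Relation.ReflTransGen.refl⟩
  refine ⟨(B ∩ D) ∩ R, (B ∩ D) \ R, ?_, ?_, ?_, ?_⟩
  · refine hB.indep.subset ?_
    rintro a (ha | ha)
    · exact ha.1.1
    · exact ha.1.1
  · refine hD.indep.subset ?_
    rintro a (ha | ha)
    · exact ha.1.2
    · exact ha.1.2
  · exact disjoint_left.2 fun a ha ha' => ha'.2 ha.2
  · apply Subset.antisymm
    · refine union_subset (M.closure_subset_ground _) ?_
      rw [hE]; exact N.closure_subset_ground _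
    · intro e he
      by_cases heR : e ∈ R
      · left
        by_cases heB : e ∈ B
        · have heD : e ∈ D := by
            by_contra hcon
            exact hRB e heR ⟨heB, hcon⟩
          exact M.mem_closure_of_mem' ⟨⟨heB, heD⟩, heR⟩ he
        · have hc := mem_closure_of_forall_not_arc hB he heB R
            (fun x hx hax => hx.2 (hRarc e x heR (Or.inl hax)))
          refine M.closure_subset_closure ?_ hc
          rintro a ⟨haB, haR⟩
          have haD : a ∈ D := by
            by_contra hcon
            exact hRB a haR ⟨haB, hcon⟩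
          exact ⟨⟨haB, haD⟩, haR⟩
      · right
        have he' : e ∈ N.E := hE ▸ he
        by_cases heD : e ∈ D
        · have heB : e ∈ B := by
            by_contra hcon
            exact heR (hDBR e ⟨heD, hcon⟩)
          exact N.mem_closure_of_mem' ⟨⟨heB, heD⟩, heR⟩ he'
        · have hc := mem_closure_of_forall_not_arc hD he' heD Rᶜ
            (fun x hx hax => by
              have hxR : x ∈ R := by
                by_contra hcon
                exact hx.2 hcon
              exact heR (hRarc x e hxR (Or.inr hax)))
          refine N.closure_subset_closure ?_ hc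
          rintro a ⟨haD, haR⟩
          have haB : a ∈ B := by
            by_contra hcon
            exact haR (hDBR a ⟨haD, hcon⟩)
          exact ⟨⟨haB, haD⟩, haR⟩

lemma SatisfiesIntersection.symm (hE : M.E = N.E) (h : SatisfiesIntersection M N) :
    SatisfiesIntersection N M := by
  obtain ⟨JM, JN, h1, h2, h3, h4⟩ := h
  refine ⟨JN, JM, ?_, ?_, h3.symm, ?_⟩
  · rwa [union_comm]
  · rwa [union_comm]
  · rw [union_comm, h4, hE]

/-- **Finite defect theorem.** If a base of `M` and a base of `N` are such that one
of them is contained in the other up to finitely many elements, the pair satisfies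
intersection. -/
theorem satisfies_of_finite_defect (hE : M.E = N.E) (hB : M.IsBase B) (hD : N.IsBase D)
    (h : (D \ B).Finite ∨ (B \ D).Finite) : SatisfiesIntersection M N := by
  rcases h with h | h
  · obtain ⟨B', D', hB', hD', hno⟩ := exists_no_reach (M := M) (N := N) _ B D hB hD h rfl
    exact satisfies_of_no_reach hE hB' hD' hno
  · obtain ⟨D', B', hD', hB', hno⟩ := exists_no_reach (M := N) (N := M) _ D B hD hB h rfl
    exact (satisfies_of_no_reach hE.symm hD' hB' hno).symm hE.symm

end Vale.Agent.Lib.P068
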