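import Mathlib

namespace Vale.Agent.Lib.P068

open Set Matroid

variable {α ι : Type*}

lemma exists_rel_basis {M : Matroid α} {C Z : Set α} (hC : M.Indep C) (hZ : Z ⊆ M.E) :
    ∃ R, R ⊆ Z ∧ M.Indep (R ∪ C) ∧ Z ⊆ M.closure (C ∪ R) := by
  obtain ⟨J, hJ, hCJ⟩ := hC.subset_isBasis_of_subset (subset_union_left : C ⊆ C ∪ Z)
    (union_subset hC.subset_ground hZ)
  refine ⟨J \ C, ?_, ?_, ?_⟩
  · rintro a ⟨haJ, haC⟩
    exact (hJ.subset haJ).resolve_left haC
  · rw [sdiff_union_of_subset hCJ]; exact hJ.indep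
  · rw [union_sdiff_cancel hCJ]
    exact subset_union_right.trans hJ.subset_closure

lemma indep_union_of_subset_closure {M : Matroid α} {I W R : Set α} (hI : M.Indep I)
    (hIW : I ⊆ M.closure W) (hWR : M.Indep (W ∪ R)) (hd : W ∩ R ⊆ I) : M.Indep (I ∪ R) := by
  have hR : M.Indep R := hWR.subset subset_union_right
  rw [hI.union_indep_iff_forall_notMem_closure_right hR]
  rintro e ⟨heR, heI⟩ hcl
  have heW : e ∉ W := fun h => heI (hd ⟨h, heR⟩)
  apply hWR.notMem_closure_sdiff_of_mem (Or.inr heR)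
  have heq : (W ∪ R) \ {e} = W ∪ (R \ {e}) := by
    rw [union_sdiff_distrib, sdiff_singleton_eq_self heW]
  rw [heq]
  have hground : W ∪ (R \ {e}) ⊆ M.E :=
    (union_subset_union_right W sdiff_subset).trans hWR.subset_ground
  refine M.closure_subset_closure_of_subset_closure ?_ hcl
  refine union_subset (hIW.trans (M.closure_mono subset_union_left)) ?_
  exact subset_union_right.trans (M.subset_closure _ hground)

/-- An abstract system: a matroid with finitely many disjoint parts, and for each part a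
pair of predicates on its subsets: being small and being large. -/
structure Sys (α ι : Type*) where
  M : Matroid α
  E : ι → Set α
  s : ι → Set α → Prop
  n : ι → Set α → Prop
  hE : ∀ i, E i ⊆ M.E
  hd : ∀ i j, i ≠ j → Disjoint (E i) (E j)
  dich : ∀ i Y, Y ⊆ E i → M.Indep Y → s i Y ∨ n i Y
  smono : ∀ i Y Y', Y ⊆ Y' → s i Y' → s i Y
  nmono : ∀ i Y Y', Y ⊆ Y' → Y' ⊆ E i → n i Y → n i Y'
  tight : ∀ i Y Y', Y ⊆ Y' → Y' ⊆ E i → s i Y → n i Y' → ∃ Z, Y ⊆ Z ∧ Z ⊆ Y' ∧ s i Z ∧ n i Z

namespace Sys

variable [DecidableEq ι] (A : Sys α ι)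

/-- The union of the parts with index in `T`. -/
def part (T : Finset ι) : Set α := ⋃ i ∈ T, A.E i

variable {A} {S T : Finset ι} {i : ι} {e : α}

lemma mem_part : e ∈ A.part T ↔ ∃ i ∈ T, e ∈ A.E i := by simp [part]

lemma part_mono (h : S ⊆ T) : A.part S ⊆ A.part T := by
  intro a ha
  obtain ⟨i, hi, hai⟩ := mem_part.1 ha
  exact mem_part.2 ⟨i, h hi, hai⟩

lemma E_subset_part (h : i ∈ T) : A.E i ⊆ A.part T := fun _ ha => mem_part.2 ⟨i, h, ha⟩

lemma part_subset_ground : A.part T ⊆ A.M.E := by
  intro a ha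
  obtain ⟨i, _, hai⟩ := mem_part.1 ha
  exact A.hE i hai

lemma notMem_E_of_mem_part (hi : i ∉ T) (he : e ∈ A.part T) : e ∉ A.E i := by
  obtain ⟨j, hj, hej⟩ := mem_part.1 he
  have hne : j ≠ i := fun h => hi (h ▸ hj)
  exact fun h => disjoint_left.1 (A.hd j i hne) hej h

lemma inter_E_subset {X Z W : Set α} (hX : X ⊆ Z ∪ W) (hW : W ⊆ A.part T) (hi : i ∉ T) :
    X ∩ A.E i ⊆ Z ∩ A.E i := by
  rintro a ⟨ha, hai⟩
  rcases hX ha with h | h
  · exact ⟨h, hai⟩
  · exact absurd hai (notMem_E_of_mem_part hi (hW h))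

variable (A)

/-- `Y` is a basis of the parts in `S` over `C` (relative to the independent set `C`) which
is small in each part. -/
def Wave (S : Finset ι) (C Y : Set α) : Prop :=
  Y ⊆ A.part S ∧ A.M.Indep (Y ∪ C) ∧ A.part S ⊆ A.M.closure (C ∪ Y) ∧
    ∀ i ∈ S, A.s i ((Y ∪ C) ∩ A.E i)

/-- A solution of the instance `T` relative to `C`. -/
def Sol (T : Finset ι) (C : Set α) : Prop :=
  ∃ (S : Finset ι) (Y R : Set α), S ⊆ T ∧ A.Wave S C Y ∧ R ⊆ A.part (T \ S) ∧
    A.M.Indep (Y ∪ R ∪ C) ∧ ∀ i ∈ T \ S, A.n i ((R ∪ C) ∩ A.E i)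

/-- There is no nontrivial wave inside `T` relative to `C`. -/
def NoWave (T : Finset ι) (C : Set α) : Prop :=
  ∀ S ⊆ T, S.Nonempty → ∀ Y, ¬ A.Wave S C Y

/-- The auxiliary statement of the induction. -/
def Strong (T : Finset ι) : Prop :=
  ∀ C B, A.M.Indep (B ∪ C) → B ⊆ A.part T → (∀ i ∈ T, A.s i ((B ∪ C) ∩ A.E i)) → A.NoWave T C →
    ∃ D, D ⊆ A.part T ∧ A.M.Indep (D ∪ C) ∧
      (∀ i ∈ T, A.s i ((D ∪ C) ∩ A.E i) ∧ A.n i ((D ∪ C) ∩ A.E i)) ∧
      B ⊆ A.M.closure (C ∪ D)

variable {A}

lemma sol_of_wave {C Y : Set α} (hST : S ⊆ T) (hW : A.Wave S C Y)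
    (hsol : A.Sol (T \ S) (Y ∪ C)) : A.Sol T C := by
  obtain ⟨hY, hInd, hspan, hs⟩ := hW
  obtain ⟨S', Y', R', hS', ⟨hY', hInd', hspan', hs'⟩, hR', hInd2, hn'⟩ := hsol
  have hdisj : ∀ i ∈ S', i ∉ S := fun i hi => (Finset.mem_sdiff.1 (hS' hi)).2
  have hsdiff : (T \ S) \ S' = T \ (S ∪ S') := by
    ext a; simp only [Finset.mem_sdiff, Finset.mem_union]; tauto
  refine ⟨S ∪ S', Y ∪ Y', R', Finset.union_subset hST (hS'.trans Finset.sdiff_subset),
    ⟨?_, ?_, ?_, ?_⟩, ?_, ?_, ?_⟩
  · exact union_subset (hY.trans (part_mono Finset.subset_union_left))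
      (hY'.trans (part_mono Finset.subset_union_right))
  · refine hInd'.subset ?_
    intro a ha
    simp only [mem_union] at ha ⊢
    tauto
  · intro a ha
    obtain ⟨i, hi, hai⟩ := mem_part.1 ha
    rcases Finset.mem_union.1 hi with hi | hi
    · exact A.M.closure_subset_closure (by
        intro b hb
        simp only [mem_union] at hb ⊢
        tauto) (hspan (E_subset_part hi hai))
    · exact A.M.closure_subset_closure (by
        intro b hb
        simp only [mem_union] at hb ⊢
        tauto) (hspan' (E_subset_part hi hai))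
  · intro i hi
    rcases Finset.mem_union.1 hi with hi | hi
    · have hiS' : i ∉ S' := fun h => hdisj i h hi
      refine A.smono i _ _ (inter_E_subset (Z := Y ∪ C) (W := Y') ?_ hY' hiS') (hs i hi)
      intro a ha
      simp only [mem_union] at ha ⊢
      tauto
    · refine A.smono i _ _ (inter_subset_inter_left _ ?_) (hs' i hi)
      intro a ha
      simp only [mem_union] at ha ⊢
      tauto
  · rw [← hsdiff]; exact hR'
  · refine hInd2.subset ?_
    intro a ha
    simp only [mem_union] at ha ⊢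
    tauto
  · intro i hi
    rw [← hsdiff] at hi
    have hiS : i ∉ S := (Finset.mem_sdiff.1 (Finset.mem_sdiff.1 hi).1).2
    refine A.nmono i _ _ ?_ inter_subset_right (hn' i hi)
    refine inter_E_subset (Z := R' ∪ C) (W := Y) ?_ hY hiS
    intro a ha
    simp only [mem_union] at ha ⊢
    tauto

lemma sol_step (hS : ∀ T' ⊂ T, ∀ C, A.M.Indep C → A.Sol T' C) (hSt : ∀ T' ⊂ T, A.Strong T')
    (C : Set α) (hC : A.M.Indep C) : A.Sol T C := by
  classical
  rcases T.eq_empty_or_nonempty with rfl | hTne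
  · refine ⟨∅, ∅, ∅, Finset.Subset.refl _, ⟨?_, ?_, ?_, ?_⟩, ?_, ?_, ?_⟩ <;> simp [part, hC]
  by_cases hW : ∃ S ⊆ T, S.Nonempty ∧ ∃ Y, A.Wave S C Y
  · obtain ⟨S, hST, hne, Y, hY⟩ := hW
    have hssub : T \ S ⊂ T := Finset.sdiff_ssubset hST hne
    exact sol_of_wave hST hY (hS _ hssub _ (hY.2.1))
  have hNo : A.NoWave T C := fun S hST hne Y hY => hW ⟨S, hST, hne, Y, hY⟩
  obtain ⟨t, ht⟩ := hTne
  obtain ⟨Bt, hBt, hBtInd, hBtSpan⟩ := exists_rel_basis hC (A.hE t)
  have hT'ss : T.erase t ⊂ T := Finset.erase_ssubset ht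
  have htT' : t ∉ T.erase t := Finset.notMem_erase t T
  have hT'T : T.erase t ⊆ T := Finset.erase_subset t T
  obtain ⟨S₂, Y₂, R₂, hS₂, ⟨hY₂, hYInd₂, hYspan₂, hYs₂⟩, hR₂, hInd₂, hn₂⟩ :=
    hS _ hT'ss (Bt ∪ C) hBtInd
  by_cases hS₂T' : S₂ = T.erase t
  · subst hS₂T'
    -- the auxiliary statement applies
    have hCB : A.M.Indep (Y₂ ∪ C) := hYInd₂.subset (by
      intro a ha
      simp only [mem_union] at ha ⊢
      tauto)
    obtain ⟨D, hD, hDInd, hDs, hDspan⟩ := hSt _ hT'ss C Y₂ hCB hY₂
      (fun i hi => A.smono i _ _ (inter_subset_inter_left _ (by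
        intro a ha
        simp only [mem_union] at ha ⊢
        tauto)) (hYs₂ i hi))
      (fun S hS' hne Y hY => hNo S (hS'.trans hT'T) hne Y hY)
    obtain ⟨Rt, hRt, hRtInd, hRtSpan⟩ := exists_rel_basis hDInd (A.hE t)
    have hRtpart : Rt ⊆ A.part T := hRt.trans (E_subset_part ht)
    have hDpart : D ⊆ A.part T := hD.trans (part_mono hT'T)
    have hground : C ∪ (D ∪ Rt) ⊆ A.M.E := hRtInd.subset_ground.trans' (by
      intro a ha
      simp only [mem_union] at ha ⊢
      tauto)
    have hcl_sub : ∀ W, W ⊆ C ∪ (D ∪ Rt) → W ⊆ A.M.closure (C ∪ (D ∪ Rt)) :=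
      fun W hW => hW.trans (A.M.subset_closure _ hground)
    have hspanall : A.part T ⊆ A.M.closure (C ∪ (D ∪ Rt)) := by
      have hEt : A.E t ⊆ A.M.closure (C ∪ (D ∪ Rt)) := by
        refine hRtSpan.trans (A.M.closure_subset_closure ?_)
        intro a ha
        simp only [mem_union] at ha ⊢
        tauto
      have hbase : (Bt ∪ C) ∪ Y₂ ⊆ A.M.closure (C ∪ (D ∪ Rt)) := by
        refine union_subset (union_subset (hBt.trans hEt) (hcl_sub _ subset_union_left)) ?_
        refine hDspan.trans (A.M.closure_subset_closure ?_)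
        intro a ha
        simp only [mem_union] at ha ⊢
        tauto
      intro a ha
      obtain ⟨i, hi, hai⟩ := mem_part.1 ha
      by_cases hit : i = t
      · subst hit; exact hEt hai
      · have hi' : i ∈ T.erase t := Finset.mem_erase.2 ⟨hit, hi⟩
        exact A.M.closure_subset_closure_of_subset_closure hbase (hYspan₂ (E_subset_part hi' hai))
    have hRtDisj : ∀ i, i ∈ T.erase t → (D ∪ Rt ∪ C) ∩ A.E i ⊆ (D ∪ C) ∩ A.E i := by
      intro i hi
      have hit : i ≠ t := (Finset.mem_erase.1 hi).1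
      rintro a ⟨ha, hai⟩
      refine ⟨?_, hai⟩
      rcases ha with (h | h) | h
      · exact Or.inl h
      · exact absurd hai (disjoint_left.1 (A.hd t i hit.symm) (hRt h))
      · exact Or.inr h
    have hdichInd : A.M.Indep ((Rt ∪ C) ∩ A.E t) := hRtInd.subset (by
      rintro a ⟨h | h, -⟩
      · exact Or.inl h
      · exact Or.inr (Or.inr h))
    rcases A.dich t ((Rt ∪ C) ∩ A.E t) inter_subset_right hdichInd with hst | hnt
    · -- a wave on all of `T`, impossible
      exfalso
      refine hNo T (Finset.Subset.refl _) ⟨t, ht⟩ (D ∪ Rt) ⟨union_subset hDpart hRtpart, ?_,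
        hspanall, ?_⟩
      · refine hRtInd.subset ?_
        intro a ha
        simp only [mem_union] at ha ⊢
        tauto
      · intro i hi
        by_cases hit : i = t
        · subst hit
          refine A.smono i _ _ (inter_E_subset (Z := Rt ∪ C) (W := D) (T := T.erase i) ?_ hD htT')
            hst
          intro a ha
          simp only [mem_union] at ha ⊢
          tauto
        · have hi' : i ∈ T.erase t := Finset.mem_erase.2 ⟨hit, hi⟩
          exact A.smono i _ _ (hRtDisj i hi') (hDs i hi').1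
    · refine ⟨∅, ∅, D ∪ Rt, Finset.empty_subset _, ⟨?_, ?_, ?_, ?_⟩, ?_, ?_, ?_⟩
      · simp [part]
      · simpa using hC
      · simp [part]
      · simp
      · simpa using union_subset hDpart hRtpart
      · refine hRtInd.subset ?_
        intro a ha
        simp only [mem_union, mem_empty_iff_false, false_or] at ha ⊢
        tauto
      · intro i hi
        have hiT : i ∈ T := (Finset.mem_sdiff.1 hi).1
        by_cases hit : i = t
        · subst hit
          refine A.nmono i _ _ (inter_subset_inter_left _ ?_) inter_subset_right hnt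
          intro a ha
          simp only [mem_union] at ha ⊢
          tauto
        · have hi' : i ∈ T.erase t := Finset.mem_erase.2 ⟨hit, hiT⟩
          refine A.nmono i _ _ (inter_subset_inter_left _ ?_) inter_subset_right (hDs i hi').2
          intro a ha
          simp only [mem_union] at ha ⊢
          tauto
  · -- the remaining part is strictly smaller
    have hS₂ss : S₂ ⊂ T.erase t := Finset.ssubset_iff_subset_ne.2 ⟨hS₂, hS₂T'⟩
    obtain ⟨j, hjT', hjS₂⟩ := Finset.exists_of_ssubset hS₂ss
    have hT''ss : insert t S₂ ⊂ T := by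
      refine Finset.ssubset_iff_subset_ne.2 ⟨?_, ?_⟩
      · exact Finset.insert_subset ht (hS₂.trans hT'T)
      · intro h
        have hjT : j ∈ insert t S₂ := h ▸ (hT'T hjT')
        rcases Finset.mem_insert.1 hjT with h' | h'
        · exact (Finset.mem_erase.1 hjT').1 h'
        · exact hjS₂ h'
    obtain ⟨S₃, Y₃, R₃, hS₃, hW₃, hR₃, hInd₃, hn₃⟩ := hS _ hT''ss C hC
    have hS₃e : S₃ = ∅ := by
      by_contra hne
      exact hNo S₃ (hS₃.trans hT''ss.subset) (Finset.nonempty_iff_ne_empty.2 hne) Y₃ hW₃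
    subst hS₃e
    have hY₃ : Y₃ = ∅ := by
      have := hW₃.1
      simpa [part] using this
    subst hY₃
    have hR₃' : R₃ ⊆ A.part (insert t S₂) := by simpa using hR₃
    have hWsub : A.part (insert t S₂) ⊆ A.M.closure ((Bt ∪ C) ∪ Y₂) := by
      intro a ha
      obtain ⟨i, hi, hai⟩ := mem_part.1 ha
      rcases Finset.mem_insert.1 hi with rfl | hi
      · exact A.M.closure_subset_closure (by
          intro b hb
          simp only [mem_union] at hb ⊢
          tauto) (hBtSpan hai)
      · exact hYspan₂ (E_subset_part hi hai)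
    have hI : A.M.Indep (R₃ ∪ C) := hInd₃.subset (by
      intro a ha
      simp only [mem_union, mem_empty_iff_false, false_or] at ha ⊢
      tauto)
    have hWR : A.M.Indep (((Bt ∪ C) ∪ Y₂) ∪ R₂) := hInd₂.subset (by
      intro a ha
      simp only [mem_union] at ha ⊢
      tauto)
    have hground : (Bt ∪ C) ∪ Y₂ ⊆ A.M.E := (subset_union_left).trans hWR.subset_ground
    have hIW : R₃ ∪ C ⊆ A.M.closure ((Bt ∪ C) ∪ Y₂) := by
      refine union_subset (hR₃'.trans hWsub) ?_
      refine Subset.trans ?_ (A.M.subset_closure _ hground)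
      intro a ha
      simp only [mem_union]
      tauto
    have hd : ((Bt ∪ C) ∪ Y₂) ∩ R₂ ⊆ R₃ ∪ C := by
      rintro a ⟨ha, haR⟩
      obtain ⟨i, hi, hai⟩ := mem_part.1 (hR₂ haR)
      have hi1 := Finset.mem_sdiff.1 hi
      have hit : i ≠ t := (Finset.mem_erase.1 hi1.1).1
      rcases ha with (h | h) | h
      · exact absurd hai (disjoint_left.1 (A.hd t i hit.symm) (hBt h))
      · exact Or.inr h
      · exact absurd hai (notMem_E_of_mem_part hi1.2 (hY₂ h))
    have hfinal := indep_union_of_subset_closure hI hIW hWR hd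
    refine ⟨∅, ∅, R₃ ∪ R₂, Finset.empty_subset _, ⟨?_, ?_, ?_, ?_⟩, ?_, ?_, ?_⟩
    · simp [part]
    · simpa using hC
    · simp [part]
    · simp
    · rw [Finset.sdiff_empty]
      refine union_subset (hR₃'.trans (part_mono hT''ss.subset)) ?_
      exact hR₂.trans (part_mono (Finset.sdiff_subset.trans hT'T))
    · refine hfinal.subset ?_
      intro a ha
      simp only [mem_union, mem_empty_iff_false, false_or] at ha ⊢
      tauto
    · intro i hi
      have hiT : i ∈ T := (Finset.mem_sdiff.1 hi).1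
      by_cases hi'' : i ∈ insert t S₂
      · have hn := hn₃ i (by simpa using hi'')
        refine A.nmono i _ _ (inter_subset_inter_left _ ?_) inter_subset_right hn
        intro a ha
        simp only [mem_union, mem_empty_iff_false, false_or] at ha ⊢
        tauto
      · have hit : i ≠ t := fun h => hi'' (h ▸ Finset.mem_insert_self _ _)
        have hiS₂ : i ∉ S₂ := fun h => hi'' (Finset.mem_insert_of_mem h)
        have hi' : i ∈ T.erase t \ S₂ :=
          Finset.mem_sdiff.2 ⟨Finset.mem_erase.2 ⟨hit, hiT⟩, hiS₂⟩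
        refine A.nmono i _ _ ?_ inter_subset_right (hn₂ i hi')
        rintro a ⟨ha, hai⟩
        refine ⟨?_, hai⟩
        rcases ha with h | h | h
        · exact Or.inl (Or.inr h)
        · exact absurd hai (disjoint_left.1 (A.hd t i hit.symm) (hBt h))
        · exact Or.inr h

lemma strong_loop {C B : Set α} (hSolAll : ∀ T' ⊆ T, ∀ C, A.M.Indep C → A.Sol T' C)
    (hSt : ∀ T' ⊂ T, A.Strong T') (hNo : A.NoWave T C) (hB : B ⊆ A.part T) (k : ℕ) :
    ∀ (S : Finset ι) (G P : Set α), S ⊆ T → (T \ S).card = k → G ⊆ A.part S →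
      P ⊆ A.part (T \ S) → A.M.Indep (G ∪ P ∪ C) → (∀ i ∈ S, A.s i ((G ∪ C) ∩ A.E i)) →
      (∀ i ∈ T \ S, A.s i ((P ∪ C) ∩ A.E i)) →
      A.part S ⊆ A.M.closure (C ∪ (G ∪ P)) → B ⊆ A.M.closure (C ∪ (G ∪ P)) →
      ∃ D, D ⊆ A.part T ∧ A.M.Indep (D ∪ C) ∧
        (∀ i ∈ T, A.s i ((D ∪ C) ∩ A.E i) ∧ A.n i ((D ∪ C) ∩ A.E i)) ∧
        B ⊆ A.M.closure (C ∪ D) := by
  classical
  induction k using Nat.strong_induction_on with
  | _ k ih =>
    intro S G P hST hk hG hP hInd hsG hsP hspanS hspanB
    by_cases hSeq : S = T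
    · subst hSeq
      have hPe : P = ∅ := by simpa [part] using hP
      subst hPe
      rcases S.eq_empty_or_nonempty with rfl | hne
      · refine ⟨∅, by simp, ?_, by simp, ?_⟩
        · refine hInd.subset ?_
          intro a ha
          simp only [mem_union, mem_empty_iff_false, false_or, or_false] at ha ⊢
          tauto
        · have : B = ∅ := by simpa [part] using hB
          simp [this]
      · exact (hNo S (Finset.Subset.refl _) hne G ⟨hG, by simpa using hInd, by simpa using hspanS,
          hsG⟩).elim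
    have hSss : S ⊂ T := Finset.ssubset_iff_subset_ne.2 ⟨hST, hSeq⟩
    have hGInd : A.M.Indep (G ∪ C) := hInd.subset (by
      intro a ha
      simp only [mem_union] at ha ⊢
      tauto)
    obtain ⟨DS, hDS, hDSInd, hDSs, hDSspan⟩ := hSt S hSss C G hGInd hG hsG
      (fun S' h ne Y hY => hNo S' (h.trans hST) ne Y hY)
    have hPE : P ⊆ A.M.E := (Subset.trans (by
      intro a ha
      simp only [mem_union]
      tauto) hInd.subset_ground)
    obtain ⟨P₀, hP₀, hP₀Ind, hP₀span⟩ := exists_rel_basis hDSInd hPE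
    have hC'E : P₀ ∪ (DS ∪ C) ⊆ A.M.E := hP₀Ind.subset_ground
    have hcl : C ∪ (G ∪ P) ⊆ A.M.closure (P₀ ∪ (DS ∪ C)) := by
      refine union_subset ?_ (union_subset ?_ ?_)
      · refine Subset.trans ?_ (A.M.subset_closure _ hC'E)
        intro a ha
        simp only [mem_union]
        tauto
      · refine hDSspan.trans (A.M.closure_subset_closure ?_)
        intro a ha
        simp only [mem_union] at ha ⊢
        tauto
      · refine hP₀span.trans (A.M.closure_subset_closure ?_)
        intro a ha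
        simp only [mem_union] at ha ⊢
        tauto
    have hcl' : A.M.closure (C ∪ (G ∪ P)) ⊆ A.M.closure (P₀ ∪ (DS ∪ C)) :=
      A.M.closure_subset_closure_of_subset_closure hcl
    obtain ⟨S'', Y, R, hS'', ⟨hY, hYInd, hYspan, hYs⟩, hR, hInd', hn⟩ :=
      hSolAll (T \ S) Finset.sdiff_subset _ hP₀Ind
    by_cases hS''e : S'' = ∅
    · subst hS''e
      have hYe : Y = ∅ := by simpa [part] using hY
      subst hYe
      rw [Finset.sdiff_empty] at hR hn
      have htight : ∀ i, i ∈ T \ S → ∃ Z, (P₀ ∪ C) ∩ A.E i ⊆ Z ∧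
          Z ⊆ (R ∪ (P₀ ∪ (DS ∪ C))) ∩ A.E i ∧ A.s i Z ∧ A.n i Z := by
        intro i hi
        refine A.tight i _ _ ?_ inter_subset_right
          (A.smono i _ _ (inter_subset_inter_left _ ?_) (hsP i hi)) (hn i hi)
        · refine inter_subset_inter_left _ ?_
          intro a ha
          simp only [mem_union] at ha ⊢
          tauto
        · intro a ha
          rcases ha with h | h
          · exact Or.inl (hP₀ h)
          · exact Or.inr h
      choose! Z hZ1 hZ2 hZs hZn using htight
      have hZE : ∀ i ∈ T \ S, Z i ⊆ A.E i := fun i hi => (hZ2 i hi).trans inter_subset_right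
      have hZR : ∀ i ∈ T \ S, Z i ⊆ R ∪ (P₀ ∪ (DS ∪ C)) :=
        fun i hi => (hZ2 i hi).trans inter_subset_left
      have hZmem : ∀ {a : α}, a ∈ (⋃ i ∈ T \ S, Z i) ↔ ∃ i ∈ T \ S, a ∈ Z i := by
        intro a; simp
      have hP₀D : P₀ ⊆ ⋃ i ∈ T \ S, Z i := by
        intro a ha
        obtain ⟨j, hj, haj⟩ := mem_part.1 (hP (hP₀ ha))
        exact hZmem.2 ⟨j, hj, hZ1 j hj ⟨Or.inl ha, haj⟩⟩
      refine ⟨DS ∪ ⋃ i ∈ T \ S, Z i, ?_, ?_, ?_, ?_⟩
      · refine union_subset (hDS.trans (part_mono hST)) ?_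
        intro a ha
        obtain ⟨i, hi, hai⟩ := hZmem.1 ha
        exact E_subset_part (Finset.mem_sdiff.1 hi).1 (hZE i hi hai)
      · refine hInd'.subset ?_
        rintro a ((h | h) | h)
        · exact Or.inr (Or.inr (Or.inl h))
        · obtain ⟨i, hi, hai⟩ := hZmem.1 h
          rcases hZR i hi hai with h' | h'
          · exact Or.inl (Or.inr h')
          · exact Or.inr h'
        · exact Or.inr (Or.inr (Or.inr h))
      · intro i hi
        by_cases hiS : i ∈ S
        · have heq : (DS ∪ (⋃ i ∈ T \ S, Z i) ∪ C) ∩ A.E i = (DS ∪ C) ∩ A.E i := by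
            apply Subset.antisymm
            · rintro a ⟨(h | h) | h, hai⟩
              · exact ⟨Or.inl h, hai⟩
              · obtain ⟨j, hj, haj⟩ := hZmem.1 h
                have hji : j ≠ i := fun h' => (Finset.mem_sdiff.1 hj).2 (h' ▸ hiS)
                exact absurd hai (disjoint_left.1 (A.hd j i hji) (hZE j hj haj))
              · exact ⟨Or.inr h, hai⟩
            · rintro a ⟨h | h, hai⟩
              · exact ⟨Or.inl (Or.inl h), hai⟩
              · exact ⟨Or.inr h, hai⟩
          rw [heq]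
          exact hDSs i hiS
        · have hi' : i ∈ T \ S := Finset.mem_sdiff.2 ⟨hi, hiS⟩
          have heq : (DS ∪ (⋃ i ∈ T \ S, Z i) ∪ C) ∩ A.E i = Z i := by
            apply Subset.antisymm
            · rintro a ⟨(h | h) | h, hai⟩
              · exact absurd hai (notMem_E_of_mem_part hiS (hDS h))
              · obtain ⟨j, hj, haj⟩ := hZmem.1 h
                by_cases hji : j = i
                · subst hji; exact haj
                · exact absurd hai (disjoint_left.1 (A.hd j i hji) (hZE j hj haj))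
              · exact hZ1 i hi' ⟨Or.inr h, hai⟩
            · intro a ha
              exact ⟨Or.inl (Or.inr (hZmem.2 ⟨i, hi', ha⟩)), hZE i hi' ha⟩
          rw [heq]
          exact ⟨hZs i hi', hZn i hi'⟩
      · refine hspanB.trans (hcl'.trans (A.M.closure_subset_closure ?_))
        rintro a (h | h | h)
        · exact Or.inr (Or.inr (hP₀D h))
        · exact Or.inr (Or.inl h)
        · exact Or.inl h
    · have hne : S''.Nonempty := Finset.nonempty_iff_ne_empty.2 hS''e
      have hS''S : ∀ i ∈ S'', i ∉ S := fun i hi => (Finset.mem_sdiff.1 (hS'' hi)).2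
      have hsdiff : (T \ S) \ S'' = T \ (S ∪ S'') := by
        ext a; simp only [Finset.mem_sdiff, Finset.mem_union]; tauto
      have hcard : (T \ (S ∪ S'')).card < k := by
        rw [← hk, ← hsdiff]
        exact Finset.card_lt_card (Finset.sdiff_ssubset hS'' hne)
      have hbig : (P₀ ∪ (DS ∪ C)) ∪ Y ⊆ C ∪ ((DS ∪ (P₀ ∩ A.part S'') ∪ Y) ∪ (P₀ \ A.part S'')) := by
        rintro a ((h | h | h) | h)
        · by_cases haS : a ∈ A.part S''
          · exact Or.inr (Or.inl (Or.inl (Or.inr ⟨h, haS⟩)))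
          · exact Or.inr (Or.inr ⟨h, haS⟩)
        · exact Or.inr (Or.inl (Or.inl (Or.inl h)))
        · exact Or.inl h
        · exact Or.inr (Or.inl (Or.inr h))
      refine ih _ hcard (S ∪ S'') (DS ∪ (P₀ ∩ A.part S'') ∪ Y) (P₀ \ A.part S'')
        (Finset.union_subset hST (hS''.trans Finset.sdiff_subset)) rfl ?_ ?_ ?_ ?_ ?_ ?_ ?_
      · refine union_subset (union_subset ?_ ?_) ?_
        · exact hDS.trans (part_mono Finset.subset_union_left)
        · exact inter_subset_right.trans (part_mono Finset.subset_union_right)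
        · exact hY.trans (part_mono Finset.subset_union_right)
      · rintro a ⟨ha, haS⟩
        obtain ⟨j, hj, haj⟩ := mem_part.1 (hP (hP₀ ha))
        refine mem_part.2 ⟨j, ?_, haj⟩
        rw [← hsdiff]
        refine Finset.mem_sdiff.2 ⟨hj, fun h => haS (mem_part.2 ⟨j, h, haj⟩)⟩
      · refine hYInd.subset ?_
        rintro a ((((h | h) | h) | h) | h)
        · exact Or.inr (Or.inr (Or.inl h))
        · exact Or.inr (Or.inl h.1)
        · exact Or.inl h
        · exact Or.inr (Or.inl h.1)
        · exact Or.inr (Or.inr (Or.inr h))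
      · intro i hi
        rcases Finset.mem_union.1 hi with hi | hi
        · have hiS'' : i ∉ S'' := fun h => hS''S i h hi
          refine A.smono i _ _ ?_ (hDSs i hi).1
          refine inter_E_subset (T := S'') (Z := DS ∪ C) (W := (P₀ ∩ A.part S'') ∪ Y) ?_
            (union_subset inter_subset_right hY) hiS''
          intro a ha
          simp only [mem_union] at ha ⊢
          tauto
        · refine A.smono i _ _ (inter_subset_inter_left _ ?_) (hYs i hi)
          rintro a (((h | h) | h) | h)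
          · exact Or.inr (Or.inr (Or.inl h))
          · exact Or.inr (Or.inl h.1)
          · exact Or.inl h
          · exact Or.inr (Or.inr (Or.inr h))
      · intro i hi
        rw [← hsdiff] at hi
        refine A.smono i _ _ (inter_subset_inter_left _ ?_) (hsP i (Finset.mem_sdiff.1 hi).1)
        rintro a (h | h)
        · exact Or.inl (hP₀ h.1)
        · exact Or.inr h
      · intro a ha
        rcases mem_part.1 ha with ⟨i, hi, hai⟩
        rcases Finset.mem_union.1 hi with hi | hi
        · exact A.M.closure_subset_closure (subset_union_left.trans hbig)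
            (hcl' (hspanS (E_subset_part hi hai)))
        · exact A.M.closure_subset_closure hbig (hYspan (E_subset_part hi hai))
      · intro a ha
        exact A.M.closure_subset_closure (subset_union_left.trans hbig) (hcl' (hspanB ha))

lemma strong_step (hSolAll : ∀ T' ⊆ T, ∀ C, A.M.Indep C → A.Sol T' C)
    (hSt : ∀ T' ⊂ T, A.Strong T') : A.Strong T := by
  intro C B hInd hB hs hNo
  refine strong_loop hSolAll hSt hNo hB _ ∅ ∅ B (Finset.empty_subset _) rfl (by simp [part])
    (by simpa using hB) (by simpa using hInd) (by simp) (by simpa using hs) (by simp [part]) ?_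
  have hE : C ∪ (∅ ∪ B) ⊆ A.M.E := by
    rw [empty_union, union_comm]; exact hInd.subset_ground
  refine Subset.trans ?_ (A.M.subset_closure _ hE)
  intro a ha
  simp only [mem_union]
  tauto

theorem sol_and_strong (T : Finset ι) : (∀ C, A.M.Indep C → A.Sol T C) ∧ A.Strong T := by
  induction T using Finset.strongInduction with
  | H T ih =>
    have hsol : ∀ C, A.M.Indep C → A.Sol T C :=
      sol_step (fun T' h => (ih T' h).1) (fun T' h => (ih T' h).2)
    refine ⟨hsol, strong_step ?_ (fun T' h => (ih T' h).2)⟩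
    intro T' hT'
    rcases hT'.eq_or_ssubset with rfl | h
    · exact hsol
    · exact (ih T' h).1

end Sys

end Vale.Agent.Lib.P068
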