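import Mathlib
import Vale.Agent.Lib.P068.Defs
import Vale.Agent.Lib.P068.FiniteDefect
import Vale.Agent.Lib.P068.SumCore

namespace Vale.Agent.Lib.P068

open Set Matroid

variable {α ι : Type*}

/-- A mixed version of the finite defect theorem, for a splitting of the ground set
into two parts which are skew in `N`. -/
theorem satisfies_of_mixed {M N : Matroid α} {U V X Y F I : Set α}
    (hE : M.E = N.E) (hUV : U ∪ V = M.E) (hdisj : Disjoint U V)
    (hskew : ∀ I J, I ⊆ U → J ⊆ V → N.Indep I → N.Indep J → N.Indep (I ∪ J))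
    (hXU : X ⊆ U) (hYV : Y ⊆ V) (hInd : M.Indep (X ∪ Y)) (hspan : U ⊆ M.closure X)
    (hIX : I ⊆ X) (hI : N.Indep I) (hfin : (X \ I).Finite)
    (hF : F.Finite) (hFV : F ⊆ V) (hspanN : V ⊆ N.closure (Y ∪ F)) :
    SatisfiesIntersection M N := by
  have hUE : U ⊆ M.E := hUV ▸ subset_union_left
  have hVE : V ⊆ M.E := hUV ▸ subset_union_right
  have hUN : U ⊆ N.E := hE ▸ hUE
  have hVN : V ⊆ N.E := hE ▸ hVE
  -- Step 1: the pair restricted to `U`
  have hXInd : M.Indep X := hInd.subset subset_union_left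
  have hXbasis : M.IsBasis X U := hXInd.isBasis_of_subset_of_subset_closure hXU hspan
  have hB₁ : (M ↾ U).IsBase X := (isBase_restrict_iff hUE).2 hXbasis
  obtain ⟨DU, hDU, hIDU⟩ := hI.subset_isBasis_of_subset (hIX.trans hXU) hUN
  have hD₁ : (N ↾ U).IsBase DU := (isBase_restrict_iff hUN).2 hDU
  obtain ⟨J₁, J₂, hJM, hJN, hJd, hJcov⟩ := satisfies_of_finite_defect (M := M ↾ U) (N := N ↾ U)
    (by simp) hB₁ hD₁ (Or.inr (hfin.subset (sdiff_subset_sdiff_right hIDU)))
  rw [restrict_indep_iff] at hJM hJN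
  have hJU : J₁ ∪ J₂ ⊆ U := hJM.2
  have hJ₁U : J₁ ⊆ U := subset_union_left.trans hJU
  have hJ₂U : J₂ ⊆ U := subset_union_right.trans hJU
  rw [restrict_closure_eq M hJ₁U hUE, restrict_closure_eq N hJ₂U hUN] at hJcov
  simp only [restrict_ground_eq] at hJcov
  -- Step 2: the two pieces of `U`
  have hJ₂notcl : ∀ a ∈ J₂, a ∉ M.closure J₁ := by
    intro a ha hcl
    have haJ₁ : a ∉ J₁ := fun h => disjoint_left.1 hJd h ha
    refine hJM.1.notMem_closure_sdiff_of_mem (Or.inr ha) (M.closure_subset_closure ?_ hcl)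
    intro b hb
    exact ⟨Or.inl hb, fun h => haJ₁ (h ▸ hb)⟩
  have hJ₁sub : J₁ ⊆ M.closure J₁ := M.subset_closure J₁ (hJ₁U.trans hUE)
  set Q : Set α := U \ M.closure J₁ with hQ
  have hQN : Q ⊆ N.closure J₂ := by
    rintro a ⟨haU, hacl⟩
    have : a ∈ (M.closure J₁ ∩ U) ∪ (N.closure J₂ ∩ U) := by rw [hJcov]; exact haU
    rcases this with h | h
    · exact absurd h.1 hacl
    · exact h.1
  have hJ₂Q : J₂ ⊆ Q := fun a ha => ⟨hJ₂U ha, hJ₂notcl a ha⟩
  -- Step 3: the remaining pair on `Q ∪ V`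
  have hQV : Q ∪ V ⊆ M.E := union_subset (sdiff_subset.trans hUE) hVE
  have hJ₁E' : Disjoint J₁ (Q ∪ V) := by
    refine disjoint_left.2 fun a ha ha' => ?_
    rcases ha' with h | h
    · exact h.2 (hJ₁sub ha)
    · exact disjoint_left.1 hdisj (hJ₁U ha) h
  have hJ₁Ind : M.Indep J₁ := hJM.1.subset subset_union_left
  have hBig : M.Indep ((J₁ ∪ J₂) ∪ Y) := by
    refine indep_union_of_subset_closure hJM.1 (hJU.trans hspan) (W := X) hInd ?_
    rintro a ⟨haX, haY⟩
    exact absurd (hYV haY) (disjoint_left.1 hdisj (hXU haX))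
  have hZInd : (M ／ J₁).Indep (J₂ ∪ Y) := by
    rw [hJ₁Ind.contract_indep_iff]
    refine ⟨?_, ?_⟩
    · refine disjoint_left.2 fun a ha ha' => ?_
      rcases ha with h | h
      · exact disjoint_left.1 hJd ha' h
      · exact disjoint_left.1 hdisj (hJ₁U ha') (hYV h)
    · refine hBig.subset ?_
      rintro a ((h | h) | h)
      · exact Or.inl (Or.inr h)
      · exact Or.inr h
      · exact Or.inl (Or.inl h)
  have hZE' : J₂ ∪ Y ⊆ Q ∪ V := union_subset_union hJ₂Q hYV
  have hZInd' : ((M ／ J₁) ↾ (Q ∪ V)).Indep (J₂ ∪ Y) := by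
    rw [restrict_indep_iff]; exact ⟨hZInd, hZE'⟩
  obtain ⟨B', hB', hZB'⟩ := hZInd'.exists_isBase_superset
  have hYFV : Y ∪ F ⊆ V := union_subset hYV hFV
  obtain ⟨DV, hDV⟩ := N.exists_isBasis (Y ∪ F) (hYFV.trans hVN)
  have hDVV : DV ⊆ V := hDV.subset.trans hYFV
  have hVDV : V ⊆ N.closure DV := by
    rw [hDV.closure_eq_closure]; exact hspanN
  have hDInd : N.Indep (J₂ ∪ DV) :=
    hskew J₂ DV hJ₂U hDVV (hJN.1.subset subset_union_right) hDV.indep
  have hD' : (N ↾ (Q ∪ V)).IsBase (J₂ ∪ DV) := by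
    rw [isBase_restrict_iff (union_subset (sdiff_subset.trans hUN) hVN)]
    refine hDInd.isBasis_of_subset_of_subset_closure (union_subset_union hJ₂Q hDVV) ?_
    refine union_subset ?_ ?_
    · exact hQN.trans (N.closure_subset_closure subset_union_left)
    · exact hVDV.trans (N.closure_subset_closure subset_union_right)
  have hfin' : ((J₂ ∪ DV) \ B').Finite := by
    refine hF.subset ?_
    rintro a ⟨ha | ha, haB⟩
    · exact absurd (hZB' (Or.inl ha)) haB
    · rcases hDV.subset ha with h | h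
      · exact absurd (hZB' (Or.inr h)) haB
      · exact h
  obtain ⟨K₁, K₂, hKM, hKN, hKd, hKcov⟩ := satisfies_of_finite_defect
    (M := (M ／ J₁) ↾ (Q ∪ V)) (N := N ↾ (Q ∪ V)) (by simp) hB' hD' (Or.inl hfin')
  rw [restrict_indep_iff] at hKM hKN
  have hKE : K₁ ∪ K₂ ⊆ Q ∪ V := hKM.2
  have hK₁E : K₁ ⊆ Q ∪ V := subset_union_left.trans hKE
  have hK₂E : K₂ ⊆ Q ∪ V := subset_union_right.trans hKE
  have hKdisj : Disjoint (K₁ ∪ K₂) J₁ := (disjoint_of_subset_left hKE hJ₁E'.symm)
  have hKInd : M.Indep ((K₁ ∪ K₂) ∪ J₁) := ((hJ₁Ind.contract_indep_iff).1 hKM.1).2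
  -- Step 4: the solution
  refine ⟨J₁ ∪ K₁, K₂, ?_, ?_, ?_, ?_⟩
  · refine hKInd.subset ?_
    rintro a ((h | h) | h)
    · exact Or.inr h
    · exact Or.inl (Or.inl h)
    · exact Or.inl (Or.inr h)
  · -- independence in `N`
    have hKQ : N.Indep (((K₁ ∪ K₂) ∩ U) ∪ J₁) := by
      have hsub : (K₁ ∪ K₂) ∩ U ⊆ N.closure J₂ := by
        rintro a ⟨ha, haU⟩
        rcases hKE ha with h | h
        · exact hQN h
        · exact absurd h (disjoint_left.1 hdisj haU)
      refine indep_union_of_subset_closure (hKN.1.subset inter_subset_left) hsub (W := J₂) ?_ ?_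
      · rw [union_comm]; exact hJN.1
      · rintro a ⟨ha, ha'⟩
        exact absurd ha (disjoint_left.1 hJd ha')
    have hKV : N.Indep ((K₁ ∪ K₂) ∩ V) := hKN.1.subset inter_subset_left
    have hall := hskew _ _ (union_subset inter_subset_right hJ₁U) inter_subset_right hKQ hKV
    refine hall.subset ?_
    rintro a ((h | h) | h)
    · exact Or.inl (Or.inr h)
    · rcases hK₁E h with h' | h'
      · exact Or.inl (Or.inl ⟨Or.inl h, h'.1⟩)
      · exact Or.inr ⟨Or.inl h, h'⟩
    · rcases hK₂E h with h' | h'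
      · exact Or.inl (Or.inl ⟨Or.inr h, h'.1⟩)
      · exact Or.inr ⟨Or.inr h, h'⟩
  · refine disjoint_left.2 ?_
    rintro a (h | h) ha
    · exact disjoint_left.1 hJ₁E' h (hK₂E ha)
    · exact disjoint_left.1 hKd h ha
  · apply Subset.antisymm
    · refine union_subset (M.closure_subset_ground _) ?_
      rw [hE]; exact N.closure_subset_ground _
    · intro e he
      by_cases heP : e ∈ M.closure J₁
      · exact Or.inl (M.closure_subset_closure subset_union_left heP)
      · have heE' : e ∈ Q ∪ V := by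
          rw [← hUV] at he
          rcases he with h | h
          · exact Or.inl ⟨h, heP⟩
          · exact Or.inr h
        have heE'' := heE'
        have hE' : ((M ／ J₁) ↾ (Q ∪ V)).E = Q ∪ V := by simp
        rw [← hE', ← hKcov] at heE'
        rcases heE' with h | h
        · left
          rw [restrict_closure_eq'] at h
          rcases h with ⟨h, -⟩ | ⟨-, h⟩
          · rw [contract_closure_eq] at h
            refine M.closure_subset_closure ?_ h.1
            rintro a (ha | ha)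
            · exact Or.inr ha.1
            · exact Or.inl ha
          · rw [contract_ground] at h
            exact absurd ⟨he, fun hh => disjoint_left.1 hJ₁E' hh heE''⟩ h
        · right
          rw [restrict_closure_eq N hK₂E (union_subset (sdiff_subset.trans hUN) hVN)] at h
          exact h.1

end Vale.Agent.Lib.P068
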