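import Mathlib
import Vale.Agent.Lib.P068.Defs
import Vale.Agent.Lib.P068.FiniteDefect
import Vale.Agent.Lib.P068.SumCore

namespace Vale.Agent.Lib.P068

open Set Matroid

variable {α : Type*}

lemma finite_of_indep_subset_closure {M : Matroid α} {I F : Set α} (hI : M.Indep I)
    (hIF : I ⊆ M.closure F) (hF : F.Finite) : I.Finite := by
  have h1 : I.encard ≤ M.eRk (M.closure F) := hI.encard_le_eRk_of_subset hIF
  rw [M.eRk_closure_eq] at h1
  have h2 := M.eRk_le_encard F
  have : I.encard ≠ ⊤ := ne_top_of_le_ne_top hF.encard_lt_top.ne (h1.trans h2)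
  exact encard_ne_top_iff.1 this

lemma finite_of_indep_union_subset_closure {M : Matroid α} {A B F : Set α}
    (hAB : M.Indep (A ∪ B)) (hd : Disjoint A B) (hB : B ⊆ M.closure (A ∪ F)) (hF : F.Finite) :
    B.Finite := by
  have hA : M.Indep A := hAB.subset subset_union_left
  have hBind : (M ／ A).Indep B := by
    rw [hA.contract_indep_iff]
    exact ⟨hd.symm, by rwa [union_comm]⟩
  have hBcl : B ⊆ (M ／ A).closure F := by
    rw [contract_closure_eq]
    exact subset_sdiff.2 ⟨by rwa [union_comm], hd.symm⟩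
  exact finite_of_indep_subset_closure hBind hBcl hF

/-- The core case of the near solution theorem. -/
theorem satisfies_of_near_core {M N : Matroid α} {X Y G : Set α} (hE : M.E = N.E)
    (hd : Disjoint X Y) (hM : M.Indep (X ∪ Y)) (hN : N.Indep (X ∪ Y)) (hG : G.Finite)
    (hcov : M.E ⊆ M.closure (X ∪ G) ∪ N.closure (Y ∪ G)) : SatisfiesIntersection M N := by
  have hXM : M.Indep X := hM.subset subset_union_left
  have hYN : N.Indep Y := hN.subset subset_union_right
  have hXE : X ⊆ M.E := hXM.subset_ground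
  have hYE : Y ⊆ M.E := (subset_union_right).trans hM.subset_ground
  set P : Set α := M.closure (X ∪ G) with hP
  have hPE : P ⊆ M.E := M.closure_subset_ground _
  have hPN : P ⊆ N.E := hE ▸ hPE
  have hXP : X ⊆ P := M.subset_closure_of_subset' subset_union_left hXE
  set Q : Set α := M.E \ P with hQ
  have hQN : Q ⊆ N.E := hE ▸ sdiff_subset
  have hQcl : Q ⊆ N.closure (Y ∪ G) := by
    rintro a ⟨ha, haP⟩
    exact (hcov ha).resolve_left haP
  -- the part of `Y` outside `P`
  set Y₁ : Set α := Y \ P with hY₁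
  have hY₂fin : (Y ∩ P).Finite := by
    refine finite_of_indep_union_subset_closure (M := M) (A := X) (F := G) ?_ ?_
      inter_subset_right hG
    · exact hM.subset (union_subset_union_right _ inter_subset_left)
    · exact disjoint_of_subset_right inter_subset_left hd
  have hY₁Q : Y₁ ⊆ Q := fun a ha => ⟨hYE ha.1, ha.2⟩
  have hY₁N : N.Indep Y₁ := hYN.subset sdiff_subset
  obtain ⟨JN, hJN, hY₁JN⟩ := hY₁N.subset_isBasis_of_subset hY₁Q hQN
  have hJNQ : JN ⊆ Q := hJN.subset
  have hT : (JN \ Y₁).Finite := by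
    refine finite_of_indep_union_subset_closure (M := N) (A := Y₁) (F := (Y ∩ P) ∪ G) ?_
      disjoint_sdiff_right ?_ (hY₂fin.union hG)
    · rw [union_sdiff_cancel hY₁JN]; exact hJN.indep
    · refine (sdiff_subset.trans (hJNQ.trans hQcl)).trans (N.closure_subset_closure ?_)
      rintro a (ha | ha)
      · by_cases haP : a ∈ P
        · exact Or.inr (Or.inl ⟨ha, haP⟩)
        · exact Or.inl ⟨ha, haP⟩
      · exact Or.inr (Or.inr ha)
  have hJNcl : Q ⊆ N.closure JN := hJN.subset_closure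
  -- a large part of `X` stays independent over `JN` in `N`
  have hXN : X ⊆ N.E := (subset_union_left).trans hN.subset_ground
  obtain ⟨W, hW, hJNW⟩ := hJN.indep.subset_isBasis_of_subset (subset_union_left : JN ⊆ JN ∪ X)
    (union_subset hJN.indep.subset_ground hXN)
  set Xm : Set α := W \ JN with hXm
  have hXmX : Xm ⊆ X := by
    rintro a ⟨ha, haJ⟩
    exact (hW.subset ha).resolve_left haJ
  have hXmInd : N.Indep (Xm ∪ JN) := by
    rw [hXm, sdiff_union_of_subset hJNW]; exact hW.indep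
  have hXfin : (X \ Xm).Finite := by
    refine finite_of_indep_union_subset_closure (M := N) (A := Y₁ ∪ Xm) (F := JN \ Y₁) ?_ ?_ ?_ hT
    · refine hN.subset ?_
      rintro a ((ha | ha) | ha)
      · exact Or.inr ha.1
      · exact Or.inl (hXmX ha)
      · exact Or.inl ha.1
    · refine disjoint_left.2 ?_
      rintro a (ha | ha) ha'
      · exact disjoint_left.1 hd ha'.1 ha.1
      · exact ha'.2 ha
    · have hsub : W ⊆ Y₁ ∪ Xm ∪ (JN \ Y₁) := by
        intro a ha
        by_cases haJ : a ∈ JN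
        · by_cases haY : a ∈ Y₁
          · exact Or.inl (Or.inl haY)
          · exact Or.inr ⟨haJ, haY⟩
        · exact Or.inl (Or.inr ⟨ha, haJ⟩)
      refine Subset.trans ?_ (N.closure_subset_closure hsub)
      exact (sdiff_subset.trans subset_union_right).trans hW.subset_closure
  -- the `M` side
  obtain ⟨B₁, hB₁, hXB₁⟩ := hXM.subset_isBasis_of_subset hXP hPE
  have hB₁fin : (B₁ \ X).Finite := by
    refine finite_of_indep_union_subset_closure (M := M) (A := X) (F := G) ?_
      disjoint_sdiff_right (sdiff_subset.trans hB₁.subset) hG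
    rw [union_sdiff_cancel hXB₁]; exact hB₁.indep
  -- the first application of the finite defect theorem, on `P`
  have hPdisj : Disjoint P JN := disjoint_left.2 fun a ha ha' => (hJNQ ha').2 ha
  have hP' : P ⊆ (N ／ JN).E := by
    rw [contract_ground]
    exact subset_sdiff.2 ⟨hPN, hPdisj⟩
  have hB₁' : (M ↾ P).IsBase B₁ := (isBase_restrict_iff hPE).2 hB₁
  have hXmInd' : ((N ／ JN) ↾ P).Indep Xm := by
    rw [restrict_indep_iff, hJN.indep.contract_indep_iff]
    exact ⟨⟨disjoint_of_subset_left (hXmX.trans hXP) hPdisj, hXmInd⟩, hXmX.trans hXP⟩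
  obtain ⟨D₁, hD₁, hXmD₁⟩ := hXmInd'.exists_isBase_superset
  have hB₁D₁ : (B₁ \ D₁).Finite := by
    refine (hB₁fin.union hXfin).subset ?_
    rintro a ⟨haB, haD⟩
    by_cases haX : a ∈ X
    · exact Or.inr ⟨haX, fun h => haD (hXmD₁ h)⟩
    · exact Or.inl ⟨haB, haX⟩
  obtain ⟨K₁, K₂, hKM, hKN, hKd, hKcov⟩ := satisfies_of_finite_defect
    (M := M ↾ P) (N := (N ／ JN) ↾ P) (by simp) hB₁' hD₁ (Or.inr hB₁D₁)
  rw [restrict_indep_iff] at hKM hKN
  have hKP : K₁ ∪ K₂ ⊆ P := hKM.2
  have hK₁P : K₁ ⊆ P := subset_union_left.trans hKP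
  have hK₂P : K₂ ⊆ P := subset_union_right.trans hKP
  rw [hJN.indep.contract_indep_iff] at hKN
  have hKNind : N.Indep ((K₁ ∪ K₂) ∪ JN) := hKN.1.2
  rw [restrict_closure_eq M hK₁P hPE, restrict_closure_eq (N ／ JN) hK₂P hP',
    contract_closure_eq] at hKcov
  simp only [restrict_ground_eq] at hKcov
  have hPcov : ∀ e ∈ P, e ∈ M.closure K₁ ∨ e ∈ N.closure (K₂ ∪ JN) := by
    intro e he
    have : e ∈ M.closure K₁ ∩ P ∪ (N.closure (K₂ ∪ JN) \ JN) ∩ P := by rw [hKcov]; exact he
    rcases this with h | h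
    · exact Or.inl h.1
    · exact Or.inr h.1.1
  have hK₁M : M.Indep K₁ := hKM.1.subset subset_union_left
  have hclK₁P : M.closure K₁ ⊆ P :=
    (M.closure_subset_closure hK₁P).trans (by rw [hP, closure_closure])
  have hK₂notcl : ∀ a ∈ K₂, a ∉ M.closure K₁ := by
    intro a ha hcl
    have haK₁ : a ∉ K₁ := fun h => disjoint_left.1 hKd h ha
    refine hKM.1.notMem_closure_sdiff_of_mem (Or.inr ha) (M.closure_subset_closure ?_ hcl)
    intro b hb
    exact ⟨Or.inl hb, fun h => haK₁ (h ▸ hb)⟩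
  -- the second application, on the complement of the closure of `K₁`
  set E₃ : Set α := M.E \ M.closure K₁ with hE₃
  have hE₃M : E₃ ⊆ M.E := sdiff_subset
  have hE₃N : E₃ ⊆ N.E := hE ▸ sdiff_subset
  have hE₃cl : E₃ ⊆ N.closure (K₂ ∪ JN) := by
    rintro e ⟨he, hecl⟩
    by_cases heP : e ∈ P
    · exact (hPcov e heP).resolve_left hecl
    · exact N.closure_subset_closure subset_union_right (hJNcl ⟨he, heP⟩)
  have hK₂E₃ : K₂ ⊆ E₃ := fun a ha => ⟨hPE (hK₂P ha), hK₂notcl a ha⟩
  have hQE₃ : Q ⊆ E₃ := fun a ha => ⟨ha.1, fun h => ha.2 (hclK₁P h)⟩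
  have hDind : N.Indep (K₂ ∪ JN) := hKNind.subset
    (union_subset_union_left _ subset_union_right)
  have hD₃ : (N ↾ E₃).IsBase (K₂ ∪ JN) := by
    rw [isBase_restrict_iff hE₃N]
    exact hDind.isBasis_of_subset_of_subset_closure (union_subset hK₂E₃ (hJNQ.trans hQE₃)) hE₃cl
  -- a large part of `Y₁` stays independent over `P` in `M`
  have hY₁M : Y₁ ⊆ M.E := sdiff_subset.trans hYE
  obtain ⟨W₂, hW₂, hB₁W₂⟩ := hB₁.indep.subset_isBasis_of_subset (subset_union_left : B₁ ⊆ B₁ ∪ Y₁)
    (union_subset hB₁.indep.subset_ground hY₁M)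
  set Ym : Set α := W₂ \ B₁ with hYm
  have hYmY₁ : Ym ⊆ Y₁ := by
    rintro a ⟨ha, haB⟩
    exact (hW₂.subset ha).resolve_left haB
  have hYmInd : M.Indep (B₁ ∪ Ym) := by
    rw [hYm, union_sdiff_cancel hB₁W₂]; exact hW₂.indep
  have hYfin : (Y₁ \ Ym).Finite := by
    refine finite_of_indep_union_subset_closure (M := M) (A := X ∪ Ym) (F := B₁ \ X) ?_ ?_ ?_
      hB₁fin
    · refine hM.subset ?_
      rintro a ((ha | ha) | ha)
      · exact Or.inl ha
      · exact Or.inr (hYmY₁ ha).1
      · exact Or.inr ha.1.1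
    · refine disjoint_left.2 ?_
      rintro a (ha | ha) ha'
      · exact disjoint_left.1 hd ha ha'.1.1
      · exact ha'.2 ha
    · have hsub : W₂ ⊆ X ∪ Ym ∪ (B₁ \ X) := by
        intro a ha
        by_cases haB : a ∈ B₁
        · by_cases haX : a ∈ X
          · exact Or.inl (Or.inl haX)
          · exact Or.inr ⟨haB, haX⟩
        · exact Or.inl (Or.inr ⟨ha, haB⟩)
      refine Subset.trans ?_ (M.closure_subset_closure hsub)
      exact (sdiff_subset.trans subset_union_right).trans hW₂.subset_closure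
  have hKYInd : M.Indep ((K₁ ∪ K₂) ∪ Ym) := by
    refine indep_union_of_subset_closure hKM.1 (hKP.trans hB₁.subset_closure) hYmInd ?_
    rintro a ⟨haB, haY⟩
    exact absurd haB haY.2
  have hZInd : (M ／ K₁).Indep (K₂ ∪ Ym) := by
    rw [hK₁M.contract_indep_iff]
    refine ⟨?_, ?_⟩
    · refine disjoint_left.2 ?_
      rintro a (ha | ha) ha'
      · exact disjoint_left.1 hKd ha' ha
      · exact (hYmY₁ ha).2 (hK₁P ha')
    · refine hKYInd.subset ?_
      rintro a ((ha | ha) | ha)
      · exact Or.inl (Or.inr ha)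
      · exact Or.inr ha
      · exact Or.inl (Or.inl ha)
  have hZE₃ : K₂ ∪ Ym ⊆ E₃ := union_subset hK₂E₃ (hYmY₁.trans (hY₁Q.trans hQE₃))
  have hZInd' : ((M ／ K₁) ↾ E₃).Indep (K₂ ∪ Ym) := by
    rw [restrict_indep_iff]; exact ⟨hZInd, hZE₃⟩
  obtain ⟨B₃, hB₃, hZB₃⟩ := hZInd'.exists_isBase_superset
  have hD₃fin : ((K₂ ∪ JN) \ B₃).Finite := by
    refine (hT.union hYfin).subset ?_
    rintro a ⟨ha | ha, haB⟩
    · exact absurd (hZB₃ (Or.inl ha)) haB
    · by_cases haY : a ∈ Y₁
      · exact Or.inr ⟨haY, fun h => haB (hZB₃ (Or.inr h))⟩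
      · exact Or.inl ⟨ha, haY⟩
  obtain ⟨L₁, L₂, hLM, hLN, hLd, hLcov⟩ := satisfies_of_finite_defect
    (M := (M ／ K₁) ↾ E₃) (N := N ↾ E₃) (by simp) hB₃ hD₃ (Or.inl hD₃fin)
  rw [restrict_indep_iff] at hLM hLN
  have hLE : L₁ ∪ L₂ ⊆ E₃ := hLM.2
  have hL₁E : L₁ ⊆ E₃ := subset_union_left.trans hLE
  have hL₂E : L₂ ⊆ E₃ := subset_union_right.trans hLE
  have hLInd : M.Indep ((L₁ ∪ L₂) ∪ K₁) := ((hK₁M.contract_indep_iff).1 hLM.1).2
  have hK₁cl : K₁ ⊆ M.closure K₁ := M.subset_closure K₁ hK₁M.subset_ground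
  refine ⟨K₁ ∪ L₁, L₂, ?_, ?_, ?_, ?_⟩
  · refine hLInd.subset ?_
    rintro a ((h | h) | h)
    · exact Or.inr h
    · exact Or.inl (Or.inl h)
    · exact Or.inl (Or.inr h)
  · have hfin : N.Indep ((L₁ ∪ L₂) ∪ K₁) := by
      refine indep_union_of_subset_closure hLN.1 (hLE.trans hE₃cl) (W := K₂ ∪ JN) ?_ ?_
      · refine hKNind.subset ?_
        rintro a ((h | h) | h)
        · exact Or.inl (Or.inr h)
        · exact Or.inr h
        · exact Or.inl (Or.inl h)
      · rintro a ⟨h | h, ha'⟩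
        · exact absurd h (disjoint_left.1 hKd ha')
        · exact absurd (hK₁P ha') (hJNQ h).2
    refine hfin.subset ?_
    rintro a ((h | h) | h)
    · exact Or.inr h
    · exact Or.inl (Or.inl h)
    · exact Or.inl (Or.inr h)
  · refine disjoint_left.2 ?_
    rintro a (h | h) ha
    · exact (hL₂E ha).2 (hK₁cl h)
    · exact disjoint_left.1 hLd h ha
  · apply Subset.antisymm
    · refine union_subset (M.closure_subset_ground _) ?_
      rw [hE]; exact N.closure_subset_ground _
    · intro e he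
      by_cases hecl : e ∈ M.closure K₁
      · exact Or.inl (M.closure_subset_closure subset_union_left hecl)
      · have heE₃ : e ∈ E₃ := ⟨he, hecl⟩
        have heK : e ∉ K₁ := fun h => hecl (hK₁cl h)
        have hE₃' : ((M ／ K₁) ↾ E₃).E = E₃ := by simp
        have hmem : e ∈ ((M ／ K₁) ↾ E₃).closure L₁ ∪ (N ↾ E₃).closure L₂ := by
          rw [hLcov, hE₃']; exact heE₃
        have hE₃K : E₃ ⊆ (M ／ K₁).E := by
          rw [contract_ground]
          exact subset_sdiff.2 ⟨hE₃M, disjoint_left.2 fun a ha ha' => ha.2 (hK₁cl ha')⟩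
        rcases hmem with h | h
        · left
          rw [restrict_closure_eq (M ／ K₁) hL₁E hE₃K, contract_closure_eq] at h
          refine M.closure_subset_closure ?_ h.1.1
          rintro a (ha | ha)
          · exact Or.inr ha
          · exact Or.inl ha
        · right
          rw [restrict_closure_eq N hL₂E hE₃N] at h
          exact h.1

/-- **Near solutions.** If disjoint sets `X`, `Y` have the property that `X ∪ Y` has finite
nullity in both matroids and, after adding a finite set `G`, the closure of `X` in `M`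
and the closure of `Y` in `N` cover the ground set, then the pair satisfies intersection. -/
theorem satisfies_of_near {M N : Matroid α} {X Y G : Set α} (hE : M.E = N.E)
    (hd : Disjoint X Y) (hM : ∃ I ⊆ X ∪ Y, M.Indep I ∧ ((X ∪ Y) \ I).Finite)
    (hN : ∃ I ⊆ X ∪ Y, N.Indep I ∧ ((X ∪ Y) \ I).Finite) (hG : G.Finite)
    (hcov : M.E ⊆ M.closure (X ∪ G) ∪ N.closure (Y ∪ G)) : SatisfiesIntersection M N := by
  obtain ⟨I, hI, hIM, hIfin⟩ := hM
  obtain ⟨I', hI', hIN, hI'fin⟩ := hN
  set G' : Set α := G ∪ (((X ∪ Y) \ I) ∪ ((X ∪ Y) \ I')) with hG'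
  have hG'fin : G'.Finite := hG.union (hIfin.union hI'fin)
  refine satisfies_of_near_core (X := X ∩ (I ∩ I')) (Y := Y ∩ (I ∩ I')) (G := G') hE
    (disjoint_of_subset inter_subset_left inter_subset_left hd) ?_ ?_ hG'fin ?_
  · refine hIM.subset ?_
    rintro a (ha | ha)
    · exact ha.2.1
    · exact ha.2.1
  · refine hIN.subset ?_
    rintro a (ha | ha)
    · exact ha.2.2
    · exact ha.2.2
  · have hsub : ∀ Z, Z ⊆ X ∪ Y → Z ∪ G ⊆ (Z ∩ (I ∩ I')) ∪ G' := by
      intro Z hZ a ha
      rcases ha with ha | ha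
      · by_cases haI : a ∈ I
        · by_cases haI' : a ∈ I'
          · exact Or.inl ⟨ha, haI, haI'⟩
          · exact Or.inr (Or.inr (Or.inr ⟨hZ ha, haI'⟩))
        · exact Or.inr (Or.inr (Or.inl ⟨hZ ha, haI⟩))
      · exact Or.inr (Or.inl ha)
    intro e he
    rcases hcov he with h | h
    · exact Or.inl (M.closure_subset_closure (hsub X subset_union_left) h)
    · exact Or.inr (N.closure_subset_closure (hsub Y subset_union_right) h)

end Vale.Agent.Lib.P068
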