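import Mathlib
import Vale.Agent.Lib.P068.Defs
import Vale.Agent.Lib.P068.FiniteDefect
import Vale.Agent.Lib.P068.SumCore
import Vale.Agent.Lib.P068.Glue

namespace Vale.Agent.Lib.P068

open Set Matroid

variable {α ι : Type*}

/-- The abstract system of a family of almost uniform matroids. -/
def sysOf (M : Matroid α) (Ns : ι → Matroid α)
    (hd : Pairwise (Function.onFun Disjoint fun i => (Ns i).E))
    (hE : M.E = ⋃ i, (Ns i).E) (hU : ∀ i, AlmostUniformOn M (Ns i)) : Sys α ι where
  M := M
  E := fun i => (Ns i).E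
  s := fun i Y => ∃ I ⊆ Y, (Ns i).Indep I ∧ (Y \ I).Finite
  n := fun i Y => ∃ F : Set α, F.Finite ∧ (Ns i).Spanning (Y ∪ F)
  hE := fun i => by rw [hE]; exact subset_iUnion (fun i => (Ns i).E) i
  hd := fun i j hij => hd hij
  dich := fun i Y hY hYM => hU i Y hY hYM
  smono := by
    rintro i Y Y' hYY' ⟨I, hI, hind, hfin⟩
    refine ⟨I ∩ Y, inter_subset_right, hind.subset inter_subset_left, hfin.subset ?_⟩
    rintro a ⟨haY, haI⟩
    exact ⟨hYY' haY, fun h => haI ⟨h, haY⟩⟩
  nmono := by
    rintro i Y Y' hYY' hY' ⟨F, hF, hspan⟩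
    exact ⟨F, hF, hspan.superset (union_subset_union_left F hYY')
      (union_subset hY' (subset_union_right.trans hspan.subset_ground))⟩
  tight := by
    rintro i Y Y' hYY' hY' ⟨I, hIY, hind, hfin⟩ ⟨F, hF, hspan⟩
    obtain ⟨J, hJ, hIJ⟩ := hind.subset_isBasis_of_subset (hIY.trans hYY') hY'
    refine ⟨Y ∪ J, subset_union_left, union_subset hYY' hJ.subset,
      ⟨J, subset_union_right, hJ.indep, ?_⟩, ⟨F, hF, ?_⟩⟩
    · refine hfin.subset ?_
      rintro a ⟨ha | ha, haJ⟩
      · exact ⟨ha, fun h => haJ (hIJ h)⟩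
      · exact absurd ha haJ
    · have hFE : F ⊆ (Ns i).E := subset_union_right.trans hspan.subset_ground
      have hground : Y ∪ J ∪ F ⊆ (Ns i).E :=
        union_subset (union_subset (hYY'.trans hY') hJ.indep.subset_ground) hFE
      refine ⟨Subset.antisymm ((Ns i).closure_subset_ground _) ?_, hground⟩
      rw [← hspan.closure_eq]
      apply (Ns i).closure_subset_closure_of_subset_closure
      refine union_subset ?_ ?_
      · refine hJ.subset_closure.trans ((Ns i).closure_subset_closure ?_)
        intro a ha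
        exact Or.inl (Or.inr ha)
      · exact subset_union_right.trans ((Ns i).subset_closure _ hground)

lemma indep_sum_of_summand {Ns : ι → Matroid α}
    {hd : Pairwise (Function.onFun Disjoint fun i => (Ns i).E)} {i : ι} {I : Set α}
    (hI : (Ns i).Indep I) : (Matroid.disjointSigma Ns hd).Indep I := by
  classical
  rw [disjointSigma_indep_iff]
  refine ⟨fun j => ?_, hI.subset_ground.trans (subset_iUnion (fun i => (Ns i).E) i)⟩
  by_cases hij : i = j
  · subst hij
    exact hI.subset inter_subset_left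
  · have : I ∩ (Ns j).E = ∅ := by
      ext a
      simp only [mem_inter_iff, mem_empty_iff_false, iff_false, not_and]
      exact fun ha => disjoint_left.1 (hd hij) (hI.subset_ground ha)
    rw [this]
    exact (Ns j).empty_indep

lemma closure_summand_subset {Ns : ι → Matroid α}
    {hd : Pairwise (Function.onFun Disjoint fun i => (Ns i).E)} {i : ι} {X : Set α}
    (hX : X ⊆ (Ns i).E) : (Ns i).closure X ⊆ (Matroid.disjointSigma Ns hd).closure X := by
  intro e he
  obtain ⟨I, hI⟩ := (Ns i).exists_isBasis X hX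
  have heI : e ∈ (Ns i).closure I := by rw [hI.closure_eq_closure]; exact he
  have hIN : (Matroid.disjointSigma Ns hd).Indep I := indep_sum_of_summand hI.indep
  refine (Matroid.disjointSigma Ns hd).closure_subset_closure hI.subset ?_
  have heE : e ∈ (Ns i).E := (Ns i).closure_subset_ground _ he
  rw [hIN.mem_closure_iff']
  refine ⟨?_, fun hins => ?_⟩
  · rw [disjointSigma_ground_eq]
    exact mem_iUnion.2 ⟨i, heE⟩
  · have h1 := (disjointSigma_indep_iff.1 hins).1 i
    have h2 : insert e I ⊆ insert e I ∩ (Ns i).E := fun a ha =>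
      ⟨ha, by
        rcases ha with rfl | ha
        · exact heE
        · exact hI.indep.subset_ground ha⟩
    exact ((hI.indep.mem_closure_iff').1 heI).2 (h1.subset h2)

/-- **Main theorem.** An arbitrary matroid `M` and a finite direct sum of almost uniform
matroids on the same ground set satisfy intersection. -/
theorem satisfies_of_sum [Finite ι] (M : Matroid α) (Ns : ι → Matroid α)
    (hd : Pairwise (Function.onFun Disjoint fun i => (Ns i).E))
    (hE : M.E = ⋃ i, (Ns i).E) (hU : ∀ i, AlmostUniformOn M (Ns i)) :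
    SatisfiesIntersection M (Matroid.disjointSigma Ns hd) := by
  classical
  cases nonempty_fintype ι
  obtain ⟨S, Y, R, -, ⟨hY, -, hYspan, hYs⟩, hR, hInd, hn⟩ :=
    ((sysOf M Ns hd hE hU).sol_and_strong Finset.univ).1 ∅ M.empty_indep
  have hpart : ∀ (T : Finset ι) (e : α), e ∈ (sysOf M Ns hd hE hU).part T ↔
      ∃ i ∈ T, e ∈ (Ns i).E := fun T e => Sys.mem_part
  simp only [sysOf, union_empty, empty_union] at hYs hn hInd hYspan
  set N := Matroid.disjointSigma Ns hd with hN
  set U := (sysOf M Ns hd hE hU).part S with hUdef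
  set V := (sysOf M Ns hd hE hU).part (Finset.univ \ S) with hVdef
  have hNE : N.E = ⋃ i, (Ns i).E := disjointSigma_ground_eq
  have hUV : U ∪ V = M.E := by
    rw [hE]
    ext e
    simp only [mem_union, mem_iUnion, hUdef, hVdef, hpart]
    constructor
    · rintro (⟨i, -, h⟩ | ⟨i, -, h⟩) <;> exact ⟨i, h⟩
    · rintro ⟨i, h⟩
      by_cases hi : i ∈ S
      · exact Or.inl ⟨i, hi, h⟩
      · exact Or.inr ⟨i, by simp [hi], h⟩
  have hdisj : Disjoint U V := by
    refine disjoint_left.2 fun e he he' => ?_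
    obtain ⟨i, hi, hei⟩ := (hpart _ _).1 he
    obtain ⟨j, hj, hej⟩ := (hpart _ _).1 he'
    have hij : i ≠ j := by
      rintro rfl
      exact (Finset.mem_sdiff.1 hj).2 hi
    exact disjoint_left.1 (hd hij) hei hej
  have hskew : ∀ I J, I ⊆ U → J ⊆ V → N.Indep I → N.Indep J → N.Indep (I ∪ J) := by
    intro I J hI hJ hIi hJi
    rw [hN, disjointSigma_indep_iff] at hIi hJi ⊢
    refine ⟨fun i => ?_, union_subset hIi.2 hJi.2⟩
    by_cases hi : i ∈ S
    · refine (hIi.1 i).subset ?_
      rintro a ⟨ha | ha, hai⟩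
      · exact ⟨ha, hai⟩
      · obtain ⟨j, hj, haj⟩ := (hpart _ _).1 (hJ ha)
        have hij : i ≠ j := by
          rintro rfl
          exact (Finset.mem_sdiff.1 hj).2 hi
        exact absurd haj (disjoint_left.1 (hd hij) hai)
    · refine (hJi.1 i).subset ?_
      rintro a ⟨ha | ha, hai⟩
      · obtain ⟨j, hj, haj⟩ := (hpart _ _).1 (hI ha)
        have hij : i ≠ j := by
          rintro rfl
          exact hi hj
        exact absurd haj (disjoint_left.1 (hd hij) hai)
      · exact ⟨ha, hai⟩
  choose! Is hIs hIind hIfin using hYs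
  choose! Fs hFfin hFspan using hn
  have hF : (⋃ i ∈ ((Finset.univ \ S : Finset ι) : Set ι), Fs i).Finite :=
    Set.Finite.biUnion (Finset.finite_toSet _) (fun i hi => hFfin i hi)
  have hFE : ∀ i ∈ Finset.univ \ S, Fs i ⊆ (Ns i).E :=
    fun i hi => subset_union_right.trans (hFspan i hi).subset_ground
  refine satisfies_of_mixed (U := U) (V := V) (X := Y) (Y := R)
    (F := ⋃ i ∈ ((Finset.univ \ S : Finset ι) : Set ι), Fs i)
    (I := ⋃ i ∈ (S : Set ι), Is i) ?_ hUV hdisj hskew hY hR hInd ?_ ?_ ?_ ?_ hF ?_ ?_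
  · rw [hE, hNE]
  · exact hYspan
  · intro a ha
    simp only [mem_iUnion, exists_prop] at ha
    obtain ⟨i, hi, hai⟩ := ha
    exact (hIs i hi hai).1
  · rw [hN, disjointSigma_indep_iff]
    have hIE : ∀ i ∈ S, Is i ⊆ (Ns i).E := fun i hi => (hIs i hi).trans inter_subset_right
    refine ⟨fun j => ?_, ?_⟩
    · by_cases hj : j ∈ S
      · refine (hIind j hj).subset ?_
        rintro a ⟨ha, haj⟩
        simp only [mem_iUnion, exists_prop] at ha
        obtain ⟨i, hi, hai⟩ := ha
        by_cases hij : i = j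
        · subst hij; exact hai
        · exact absurd haj (disjoint_left.1 (hd hij) (hIE i hi hai))
      · have : (⋃ i ∈ (S : Set ι), Is i) ∩ (Ns j).E = ∅ := by
          ext a
          simp only [mem_inter_iff, mem_iUnion, exists_prop, mem_empty_iff_false, iff_false,
            not_and]
          rintro ⟨i, hi, hai⟩ haj
          have hij : i ≠ j := by
            rintro rfl
            exact hj hi
          exact disjoint_left.1 (hd hij) (hIE i hi hai) haj
        rw [this]
        exact (Ns j).empty_indep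
    · intro a ha
      simp only [mem_iUnion, exists_prop] at ha
      obtain ⟨i, hi, hai⟩ := ha
      exact mem_iUnion.2 ⟨i, hIE i hi hai⟩
  · have hfin' : (⋃ i ∈ (S : Set ι), (Y ∩ (Ns i).E) \ Is i).Finite :=
      Set.Finite.biUnion (Finset.finite_toSet _) (fun i hi => hIfin i hi)
    refine hfin'.subset ?_
    rintro a ⟨haY, haI⟩
    obtain ⟨i, hi, hai⟩ := (hpart _ _).1 (hY haY)
    refine mem_iUnion₂.2 ⟨i, hi, ⟨haY, hai⟩, fun h => haI ?_⟩
    exact mem_iUnion₂.2 ⟨i, hi, h⟩
  · intro a ha
    obtain ⟨i, hi, hai⟩ := mem_iUnion₂.1 ha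
    exact (hpart _ _).2 ⟨i, hi, hFE i hi hai⟩
  · intro e he
    obtain ⟨i, hi, hei⟩ := (hpart _ _).1 he
    have hspan := hFspan i hi
    have hein : e ∈ (Ns i).closure (R ∩ (Ns i).E ∪ Fs i) := by
      rw [hspan.closure_eq]; exact hei
    have h2 := closure_summand_subset (hd := hd) hspan.subset_ground hein
    refine N.closure_subset_closure ?_ h2
    rintro a (ha | ha)
    · exact Or.inl ha.1
    · exact Or.inr (mem_iUnion₂.2 ⟨i, hi, ha⟩)

end Vale.Agent.Lib.P068
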