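import Mathlib
import Vale.Agent.Lib.P068.Defs
import Vale.Agent.Lib.P068.FiniteDefect
import Vale.Agent.Lib.P068.SumCore
import Vale.Agent.Lib.P068.Near
import Vale.Agent.Lib.P068.SumMain

namespace Vale.Agent.Lib.P068

open Set Matroid

variable {α : Type*} {M N : Matroid α}

/-- Removing finitely many elements from an independent set can be repaired by adding finitely
many elements outside of them. -/
lemma exists_finite_span_of_sdiff {J F : Set α} (hJ : M.Indep J) (hF : F.Finite) :
    ∃ G, G.Finite ∧ G ⊆ M.E \ F ∧ M.closure J \ F ⊆ M.closure ((J \ F) ∪ G) := by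
  have hLE : M.closure J \ F ⊆ M.E := sdiff_subset.trans (M.closure_subset_ground _)
  have hsub : J \ F ⊆ M.closure J \ F := fun a ha =>
    ⟨M.subset_closure J hJ.subset_ground ha.1, ha.2⟩
  obtain ⟨W, hW, hJW⟩ := (hJ.subset (sdiff_subset : J \ F ⊆ J)).subset_isBasis_of_subset hsub hLE
  refine ⟨W \ (J \ F), ?_, ?_, ?_⟩
  · refine finite_of_indep_union_subset_closure (M := M) (A := J \ F) (F := J ∩ F) ?_
      disjoint_sdiff_right ?_ (hF.subset inter_subset_right)
    · rw [union_sdiff_cancel hJW]; exact hW.indep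
    · have : J \ F ∪ (J ∩ F) = J := sdiff_union_inter J F
      rw [this]
      exact sdiff_subset.trans (hW.subset.trans sdiff_subset)
  · rintro a ⟨ha, -⟩
    exact ⟨M.closure_subset_ground _ (hW.subset ha).1, (hW.subset ha).2⟩
  · rw [union_sdiff_cancel hJW]
    exact hW.subset_closure

/-- Contracting a finite set keeps a cofinite part of an independent set independent. -/
lemma exists_indep_contract {J C : Set α} (hJ : M.Indep J) (hC : C.Finite) (hd : Disjoint J C) :
    ∃ I ⊆ J, (M ／ C).Indep I ∧ (J \ I).Finite := by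
  obtain ⟨I₁, hI₁⟩ := M.exists_isBasis' C
  have hI₁ind : M.Indep I₁ := hI₁.indep
  obtain ⟨W, hW, hIW⟩ := hI₁ind.subset_isBasis_of_subset (subset_union_left : I₁ ⊆ I₁ ∪ J)
    (union_subset hI₁ind.subset_ground hJ.subset_ground)
  have hI₁C : I₁ ⊆ C := hI₁.subset
  have hdI : Disjoint J I₁ := disjoint_of_subset_right hI₁C hd
  have hWJ : W \ I₁ ⊆ J := by
    rintro a ⟨ha, haI⟩
    exact (hW.subset ha).resolve_left haI
  refine ⟨W \ I₁, hWJ, ?_, ?_⟩
  · rw [hI₁.contract_indep_iff]
    refine ⟨?_, (disjoint_of_subset_left hWJ hd).symm⟩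
    rw [sdiff_union_of_subset hIW]; exact hW.indep
  · refine finite_of_indep_union_subset_closure (M := M) (A := W \ I₁) (F := I₁) ?_ ?_ ?_
      (hC.subset hI₁C)
    · rw [union_sdiff_cancel hWJ]; exact hJ
    · exact disjoint_sdiff_right
    · rw [sdiff_union_of_subset hIW]
      exact sdiff_subset.trans (subset_union_right.trans hW.subset_closure)

/-- A solution of a pair of minors obtained from finitely many elements gives a solution. -/
theorem satisfies_of_minor {C₁ D₁ C₂ D₂ : Set α} (hE : M.E = N.E) (hF : (C₁ ∪ D₁).Finite)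
    (hF2 : C₂ ∪ D₂ = C₁ ∪ D₁) (h : SatisfiesIntersection (M ／ C₁ ＼ D₁) (N ／ C₂ ＼ D₂)) :
    SatisfiesIntersection M N := by
  obtain ⟨JM, JN, h1, h2, h3, h4⟩ := h
  refine satisfies_of_near hE (X := JM) (Y := JN) (G := C₁ ∪ D₁) h3
    ⟨_, Subset.rfl, h1.of_delete.of_contract, by simp⟩
    ⟨_, Subset.rfl, h2.of_delete.of_contract, by simp⟩ hF ?_
  intro e he
  by_cases heF : e ∈ C₁ ∪ D₁
  · exact Or.inl (M.mem_closure_of_mem' (Or.inr heF) he)
  have hmem : e ∈ (M ／ C₁ ＼ D₁).closure JM ∪ (N ／ C₂ ＼ D₂).closure JN := by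
    rw [h4]
    simp only [delete_ground, contract_ground]
    exact ⟨⟨he, fun h => heF (Or.inl h)⟩, fun h => heF (Or.inr h)⟩
  rcases hmem with h | h
  · left
    rw [delete_closure_eq, contract_closure_eq] at h
    refine M.closure_subset_closure ?_ h.1.1
    rintro a (ha | ha)
    · exact Or.inl ha.1
    · exact Or.inr (Or.inl ha)
  · right
    rw [delete_closure_eq, contract_closure_eq] at h
    refine N.closure_subset_closure ?_ h.1.1
    rintro a (ha | ha)
    · exact Or.inl ha.1
    · exact Or.inr (hF2 ▸ Or.inl ha)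

/-- A solution of a pair gives a solution of any pair of minors obtained from
finitely many elements. -/
theorem satisfies_minor {C₁ D₁ C₂ D₂ : Set α} (hE : M.E = N.E) (hF : (C₁ ∪ D₁).Finite)
    (hF2 : C₂ ∪ D₂ = C₁ ∪ D₁) (h : SatisfiesIntersection M N) :
    SatisfiesIntersection (M ／ C₁ ＼ D₁) (N ／ C₂ ＼ D₂) := by
  obtain ⟨JM, JN, h1, h2, h3, h4⟩ := h
  set F : Set α := C₁ ∪ D₁ with hFdef
  have hC₁ : C₁.Finite := hF.subset subset_union_left
  have hD₁ : D₁.Finite := hF.subset subset_union_right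
  have hC₂ : C₂.Finite := hF.subset (hF2 ▸ subset_union_left)
  have hD₂ : D₂.Finite := hF.subset (hF2 ▸ subset_union_right)
  obtain ⟨GM, hGMfin, hGM, hGMcl⟩ := exists_finite_span_of_sdiff
    (h1.subset subset_union_left : M.Indep JM) hF
  obtain ⟨GN, hGNfin, hGN, hGNcl⟩ := exists_finite_span_of_sdiff
    (h2.subset subset_union_right : N.Indep JN) hF
  have hground : (M ／ C₁ ＼ D₁).E = M.E \ F := by
    simp only [delete_ground, contract_ground, hFdef, sdiff_sdiff]
  have hground2 : (N ／ C₂ ＼ D₂).E = M.E \ F := by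
    simp only [delete_ground, contract_ground, sdiff_sdiff]
    rw [hF2, hE]
  have hdJ : Disjoint ((JM ∪ JN) \ F) F := disjoint_sdiff_left
  -- finite nullity in the minors
  have hnull : ∀ {L : Matroid α} {C D : Set α}, C ∪ D = F → L.Indep (JM ∪ JN) →
      ∃ I ⊆ (JM \ F) ∪ (JN \ F), (L ／ C ＼ D).Indep I ∧ (((JM \ F) ∪ (JN \ F)) \ I).Finite := by
    intro L C D hCD hL
    have hCF : C.Finite := hF.subset (hCD ▸ subset_union_left)
    have heq : (JM \ F) ∪ (JN \ F) = (JM ∪ JN) \ F := (union_sdiff_distrib).symm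
    rw [heq]
    obtain ⟨I, hI, hIC, hIfin⟩ := exists_indep_contract (hL.subset (sdiff_subset : _ \ F ⊆ _)) hCF
      (disjoint_of_subset_right (hCD ▸ subset_union_left) hdJ)
    refine ⟨I, hI, ?_, hIfin⟩
    refine hIC.indep_delete_of_disjoint ?_
    exact disjoint_of_subset hI (hCD ▸ subset_union_right) hdJ
  refine satisfies_of_near (hground.trans hground2.symm) (X := JM \ F) (Y := JN \ F) (G := GM ∪ GN)
    ?_ (hnull rfl h1) (hnull hF2 h2) (hGMfin.union hGNfin) ?_
  · exact disjoint_of_subset sdiff_subset sdiff_subset h3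
  · intro e he
    rw [hground] at he
    have he' : e ∈ M.closure JM ∪ N.closure JN := by rw [h4]; exact he.1
    have hnotF := he.2
    rcases he' with h | h
    · left
      rw [delete_closure_eq, contract_closure_eq]
      refine ⟨⟨?_, fun hh => hnotF (Or.inl hh)⟩, fun hh => hnotF (Or.inr hh)⟩
      refine M.closure_subset_closure ?_ (hGMcl ⟨h, hnotF⟩)
      rintro a (ha | ha)
      · exact Or.inl ⟨Or.inl ha, fun hh => ha.2 (Or.inr hh)⟩
      · exact Or.inl ⟨Or.inr (Or.inl ha), fun hh => (hGM ha).2 (Or.inr hh)⟩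
    · right
      rw [delete_closure_eq, contract_closure_eq]
      have hnotF' : e ∉ C₂ ∪ D₂ := hF2 ▸ hnotF
      refine ⟨⟨?_, fun hh => hnotF' (Or.inl hh)⟩, fun hh => hnotF' (Or.inr hh)⟩
      refine N.closure_subset_closure ?_ (hGNcl ⟨h, hnotF⟩)
      rintro a (ha | ha)
      · refine Or.inl ⟨Or.inl ha, fun hh => ha.2 ?_⟩
        exact hF2 ▸ Or.inr hh
      · refine Or.inl ⟨Or.inr (Or.inr ha), fun hh => (hGN ha).2 ?_⟩
        exact hF2 ▸ Or.inr hh

/-- **Finite invariance.** -/
theorem satisfies_minor_iff {C₁ D₁ C₂ D₂ : Set α} (hE : M.E = N.E) (hF : (C₁ ∪ D₁).Finite)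
    (hF2 : C₂ ∪ D₂ = C₁ ∪ D₁) :
    SatisfiesIntersection (M ／ C₁ ＼ D₁) (N ／ C₂ ＼ D₂) ↔ SatisfiesIntersection M N :=
  ⟨satisfies_of_minor hE hF hF2, satisfies_minor hE hF hF2⟩

/-- The main theorem on sums, for a matroid which becomes a finite direct sum after contracting
and deleting finitely many elements. -/
theorem satisfies_of_minor_sum {ι : Type*} [Finite ι] {C D : Set α} (hE : M.E = N.E)
    (hC : C.Finite) (hD : D.Finite) (Ns : ι → Matroid α)
    (hd : Pairwise (Function.onFun Disjoint fun i => (Ns i).E))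
    (hN : N ／ C ＼ D = Matroid.disjointSigma Ns hd) (hU : ∀ i, AlmostUniformOn M (Ns i)) :
    SatisfiesIntersection M N := by
  have hEN : (N ／ C ＼ D).E = ⋃ i, (Ns i).E := by rw [hN]; exact disjointSigma_ground_eq
  refine satisfies_of_minor (C₁ := ∅) (D₁ := C ∪ D) (C₂ := C) (D₂ := D) hE (by simpa using hC.union hD)
    (by simp) ?_
  rw [hN]
  refine satisfies_of_sum _ Ns hd ?_ ?_
  · rw [← hEN]
    simp only [delete_ground, contract_ground, contract_empty, hE, sdiff_sdiff]
  · intro i X hX hXM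
    exact hU i X hX hXM.of_delete.of_contract

end Vale.Agent.Lib.P068
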